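import Vale.Agent.P315.H36.Avg
import Vale.Agent.P315.H142.Rec

/-! The base algorithm: one run (tables `A`, `B` for one pair of starts) gives values for all
pairs of ends; soundness, upper bound, and Markov's inequality for a family of instances with
common pivots and offsets. -/

set_option autoImplicit false

namespace Vale.Agent.P315.H36

open Vale.Agent.P315 Vale.Agent.P315.H142

/-- `s` is a set of nearest grid points of window `i`. -/
def NearAt (P : Pm) (i : ℕ) (s : Finset ℕ) : Prop :=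
  min P.d P.M ≤ s.card ∧ (∀ j ∈ s, j < P.M) ∧
    ∀ j ∈ s, ∀ j' < P.M, j' ∉ s → P.dxy i j ≤ P.dxy i j'

/-- What the tables of one run have to satisfy. -/
structure Good (P : Pm) (A B : ℕ → ℕ → ℕ) (piv smp : Finset ℕ) (S : ℕ → Finset ℕ) : Prop where
  A0 : ∀ i < P.k, ∀ j < P.M, P.dxy i j ≤ A i j
  A1 : ∀ i < P.k, ∀ j < P.M, A i j ≤ 2 * P.w
  A2 : ∀ i < P.k, ∀ j < P.M, ∀ p ∈ piv, A i j ≤ P.dxy i p + P.dyy p j
  B0 : ∀ a < P.K, ∀ j < P.M, P.dbl (a * P.b) j ≤ B a j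
  B1 : ∀ a < P.K, ∀ r ∈ smp, ∀ j ∈ S (a * P.b + r), B a (j - r * P.v) ≤
    P.dbl (a * P.b) (j - r * P.v)
  near : ∀ a < P.K, ∀ r ∈ smp, NearAt P (a * P.b + r) (S (a * P.b + r))

/-- The instance with other ends. -/
def Pm.cut (P : Pm) (K lx ly : ℕ) : Pm := { P with K := K, lx := lx, ly := ly }

/-- The output for the ends `lx`, `ly`. -/
def val (P : Pm) (A B : ℕ → ℕ → ℕ) (lx ly : ℕ) : ℕ :=
  outF (P.cut (lx / (P.b * P.w)) lx ly) A B

/-- The instance with the ends `lx`, `ly`. -/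
def Pm.ends (P : Pm) (lx ly : ℕ) : Pm := P.cut (lx / (P.b * P.w)) lx ly

section
variable {P : Pm} {A B : ℕ → ℕ → ℕ} {piv smp : Finset ℕ} {S : ℕ → Finset ℕ}

theorem Good.cut (h : Good P A B piv smp S) {K lx ly : ℕ} (hK : K ≤ P.K) :
    Good (P.cut K lx ly) A B piv smp S := by
  have hk : (P.cut K lx ly).k ≤ P.k := Nat.mul_le_mul_right _ hK
  exact ⟨fun i hi => h.A0 i (hi.trans_le hk), fun i hi => h.A1 i (hi.trans_le hk),
    fun i hi => h.A2 i (hi.trans_le hk), fun a ha => h.B0 a (ha.trans_le hK),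
    fun a ha => h.B1 a (ha.trans_le hK), fun a ha => h.near a (ha.trans_le hK)⟩

theorem ends_ok (hg : 0 < P.g) (hb : 0 < P.b) (hv : 0 < P.v) {lx ly : ℕ}
    (hly : ly < P.M * P.g) : (P.ends lx ly).Ok := by
  have hw : 0 < P.w := Nat.mul_pos hg hv
  have hbw : 0 < P.b * P.w := Nat.mul_pos hb hw
  have h1 := Nat.div_mul_le_self lx (P.b * P.w)
  have h2 := Nat.lt_div_mul_add hbw (a := lx)
  have e : (P.ends lx ly).k * (P.ends lx ly).w = lx / (P.b * P.w) * (P.b * P.w) := by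
    show lx / (P.b * P.w) * P.b * P.w = _
    ring
  refine ⟨hg, hb, ?_, ?_, hly⟩
  · rw [e]; exact h1
  · rw [e]; exact h2.le

/-- Soundness. -/
theorem val_ge (hg : 0 < P.g) (hb : 0 < P.b) (hv : 0 < P.v) (h : Good P A B piv smp S)
    {lx ly : ℕ} (hlx : lx / (P.b * P.w) ≤ P.K) (hly : ly < P.M * P.g) :
    dist P.X P.Y P.px lx P.py ly ≤ val P A B lx ly := by
  have h' := h.cut (lx := lx) (ly := ly) hlx
  exact outF_ge (ends_ok hg hb hv hly) ⟨h'.A0, h'.B0⟩

open Classical in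
theorem Good.tab (hP : P.Ok) (h : Good P A B piv smp S) (hsb : ∀ r ∈ smp, r < P.b) :
    ∃ S', P.Tab A B (FF P A B) (outF P A B) piv smp S' ∧ P.IsNear S' := by
  let S' : ℕ → Finset ℕ := fun i => if ∃ a < P.K, ∃ r ∈ smp, i = a * P.b + r then S i else
    Finset.range P.M
  have hS : ∀ a < P.K, ∀ r ∈ smp, S' (a * P.b + r) = S (a * P.b + r) := by
    intro a ha r hr
    simp only [S']
    rw [if_pos ⟨a, ha, r, hr, rfl⟩]
  refine ⟨S', tab_FF hP h.A1 h.A2 ?_, ?_, ?_, ?_⟩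
  · intro a ha r hr j hj
    rw [hS a ha r hr] at hj
    exact h.B1 a ha r hr j hj
  · intro i _
    simp only [S']
    split_ifs with hc
    · obtain ⟨a, ha, r, hr, rfl⟩ := hc
      exact (h.near a ha r hr).1
    · simp
  · intro i _ j hj
    simp only [S'] at hj
    split_ifs at hj with hc
    · obtain ⟨a, ha, r, hr, rfl⟩ := hc
      exact (h.near a ha r hr).2.1 j hj
    · exact Finset.mem_range.mp hj
  · intro i _ j hj j' hj' hn
    simp only [S'] at hj hn
    split_ifs at hj hn with hc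
    · obtain ⟨a, ha, r, hr, rfl⟩ := hc
      exact (h.near a ha r hr).2.2 j hj j' hj' hn
    · exact absurd (Finset.mem_range.mpr hj') hn

/-- **Upper bound for all ends.** -/
theorem val_le (hg : 0 < P.g) (hb : 0 < P.b) (hv : 0 < P.v) (h : Good P A B piv smp S)
    (hsb : ∀ r ∈ smp, r < P.b) {lx ly : ℕ} (hlx : lx / (P.b * P.w) ≤ P.K)
    (hly : ly < P.M * P.g) {f : ℕ → ℕ} (hf : Al (P.ends lx ly) f) :
    val P A B lx ly ≤ 10 * dist P.X P.Y P.px lx P.py ly + 11 * (P.b * P.w) + P.g +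
      8 * P.g * (P.ends lx ly).k + 2 * P.w * nb (P.ends lx ly) f piv smp 0 (P.ends lx ly).k := by
  have hP := ends_ok (P := P) (lx := lx) hg hb hv hly
  obtain ⟨S', hT, hS⟩ := (h.cut (lx := lx) (ly := ly) hlx).tab hP hsb
  exact out_le hP hf hT hS hsb

end

/-! ### Markov's inequality -/

theorem sum_nb' {P : Pm} (hP : P.Ok) (f : ℕ → ℕ) {M b d : ℕ} (hM : P.M = M) (hb : P.b = b)
    (hd : P.d = d) (s R : ℕ) :
    (s * d * (R + 1)) * ∑ p : Fin s → Fin M, ∑ r : Fin R → Fin b,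
      nb P f (pv p) (pv r) 0 P.k ≤ M ^ s * b ^ R * (P.k * ((R + 1) * M + s * d)) := by
  subst hM hb hd
  exact sum_nb hP f s R

open Classical in
/-- Few seeds are bad for some member of the family. -/
theorem markov_all {ι : Type*} (T : Finset ι) (P : ι → Pm) (f : ι → ℕ → ℕ)
    {M b d k : ℕ} (hP : ∀ t ∈ T, (P t).Ok) (hM : ∀ t ∈ T, (P t).M = M)
    (hb : ∀ t ∈ T, (P t).b = b) (hd : ∀ t ∈ T, (P t).d = d) (hk : ∀ t ∈ T, (P t).k ≤ k)
    (s R m : ℕ) :
    (m + 1) * (s * d * (R + 1)) *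
      (Finset.univ.filter (fun z : (Fin s → Fin M) × (Fin R → Fin b) =>
        ∃ t ∈ T, m < nb (P t) (f t) (pv z.1) (pv z.2) 0 (P t).k)).card ≤
      T.card * (M ^ s * b ^ R * (k * ((R + 1) * M + s * d))) := by
  have h1 : (Finset.univ.filter (fun z : (Fin s → Fin M) × (Fin R → Fin b) =>
      ∃ t ∈ T, m < nb (P t) (f t) (pv z.1) (pv z.2) 0 (P t).k)).card * (m + 1) ≤
      ∑ t ∈ T, ∑ z : (Fin s → Fin M) × (Fin R → Fin b),
        nb (P t) (f t) (pv z.1) (pv z.2) 0 (P t).k := by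
    rw [Finset.sum_comm, ← smul_eq_mul, ← Finset.sum_const]
    refine (Finset.sum_le_sum (fun z hz => ?_)).trans
      (Finset.sum_le_sum_of_subset (Finset.subset_univ _))
    obtain ⟨t, ht, h⟩ := (Finset.mem_filter.mp hz).2
    refine le_trans (Nat.succ_le_of_lt h) ?_
    exact Finset.single_le_sum (f := fun t => nb (P t) (f t) (pv z.1) (pv z.2) 0 (P t).k)
      (fun t _ => Nat.zero_le _) ht
  calc (m + 1) * (s * d * (R + 1)) * (Finset.univ.filter
        (fun z : (Fin s → Fin M) × (Fin R → Fin b) =>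
        ∃ t ∈ T, m < nb (P t) (f t) (pv z.1) (pv z.2) 0 (P t).k)).card
      = (s * d * (R + 1)) * ((Finset.univ.filter
        (fun z : (Fin s → Fin M) × (Fin R → Fin b) =>
        ∃ t ∈ T, m < nb (P t) (f t) (pv z.1) (pv z.2) 0 (P t).k)).card * (m + 1)) := by ring
    _ ≤ (s * d * (R + 1)) * ∑ t ∈ T, ∑ z : (Fin s → Fin M) × (Fin R → Fin b),
        nb (P t) (f t) (pv z.1) (pv z.2) 0 (P t).k := Nat.mul_le_mul_left _ h1
    _ = ∑ t ∈ T, (s * d * (R + 1)) * ∑ p : Fin s → Fin M, ∑ r : Fin R → Fin b,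
        nb (P t) (f t) (pv p) (pv r) 0 (P t).k := by
        rw [Finset.mul_sum]
        refine Finset.sum_congr rfl fun t _ => ?_
        rw [Fintype.sum_prod_type]
    _ ≤ ∑ t ∈ T, M ^ s * b ^ R * (k * ((R + 1) * M + s * d)) := by
        refine Finset.sum_le_sum fun t ht => ?_
        refine (sum_nb' (hP t ht) (f t) (hM t ht) (hb t ht) (hd t ht) s R).trans ?_
        exact Nat.mul_le_mul_left _ (Nat.mul_le_mul_right _ (hk t ht))
    _ = _ := by rw [Finset.sum_const, smul_eq_mul]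

end Vale.Agent.P315.H36
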