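import Vale.Agent.P315.H36.Bound

/-! The base algorithm: the bound for the output in terms of the bad windows, and the average
number of bad windows over uniform pivots and uniform sampled offsets. -/

set_option autoImplicit false

namespace Vale.Agent.P315.H36

open Vale.Agent.P315

variable {P : Pm} {f : ℕ → ℕ} {A B F : ℕ → ℕ → ℕ} {out : ℕ} {piv smp : Finset ℕ}
  {S : ℕ → Finset ℕ}

/-- Bad windows: dense without a pivot among the similar grid points, or sparse in a block
without a sparse sampled window. -/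
def Bd (P : Pm) (f : ℕ → ℕ) (piv smp : Finset ℕ) (i : ℕ) : Prop :=
  (P.d ≤ (NN P f i).card ∧ ∀ p ∈ piv, p ∉ NN P f i) ∨
    ((NN P f i).card < P.d ∧ ∀ r ∈ smp, P.d ≤ (NN P f (i / P.b * P.b + r)).card)

open Classical in
/-- number of bad windows in `[a, a+n)` -/
noncomputable def nb (P : Pm) (f : ℕ → ℕ) (piv smp : Finset ℕ) (a n : ℕ) : ℕ :=
  ((Finset.range n).filter (fun t => Bd P f piv smp (a + t))).card

theorem nb_zero (a : ℕ) : nb P f piv smp a 0 = 0 := by simp [nb]

open Classical in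
theorem nb_succ (a n : ℕ) : nb P f piv smp a (n + 1) =
    nb P f piv smp a n + if Bd P f piv smp (a + n) then 1 else 0 := by
  unfold nb
  rw [Finset.range_add_one, Finset.filter_insert]
  by_cases h : Bd P f piv smp (a + n)
  · rw [if_pos h, if_pos h, Finset.card_insert_of_notMem (by simp)]
  · rw [if_neg h, if_neg h]; rfl

theorem nb_mono (a : ℕ) {n m : ℕ} (h : n ≤ m) : nb P f piv smp a n ≤ nb P f piv smp a m := by
  classical
  unfold nb
  exact Finset.card_le_card (Finset.filter_subset_filter _ (Finset.range_mono h))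

theorem nb_add (n m : ℕ) : nb P f piv smp 0 (n + m) = nb P f piv smp 0 n + nb P f piv smp n m := by
  induction m with
  | zero => simp [nb_zero]
  | succ m ih =>
    rw [← Nat.add_assoc, nb_succ, nb_succ, ih, Nat.zero_add]; omega

theorem CC_succ (a n : ℕ) : CC P f a (n + 1) = CC P f a n + cc P f (a + n) := by
  unfold CC; rw [Finset.sum_range_succ]

theorem CC_add (n m : ℕ) : CC P f 0 (n + m) = CC P f 0 n + CC P f n m := by
  induction m with
  | zero => simp [CC]
  | succ m ih =>
    rw [← Nat.add_assoc, CC_succ, CC_succ, ih, Nat.zero_add]; omega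

theorem win_range (hP : P.Ok) (hf : Al P f) (hT : P.Tab A B F out piv smp S) {a : ℕ}
    (ha : a < P.K) (hno : ∀ r ∈ smp, P.d ≤ (NN P f (a * P.b + r)).card) (n : ℕ) (hn : n ≤ P.b) :
    F (a * P.b + n) (qq P f (a * P.b + n)) ≤ F (a * P.b) (qq P f (a * P.b)) +
      10 * CC P f (a * P.b) n + 8 * P.g * n + 2 * P.w * nb P f piv smp (a * P.b) n := by
  classical
  induction n with
  | zero => simp [nb_zero]
  | succ n ih =>
    have ih := ih (by omega)
    have hb := hP.b0
    have hik : a * P.b + n < P.k := by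
      have : (a + 1) * P.b ≤ P.K * P.b := Nat.mul_le_mul_right _ ha
      have e : (a + 1) * P.b = a * P.b + P.b := by ring
      unfold Pm.k; omega
    have hdiv : (a * P.b + n) / P.b = a := by
      rw [Nat.add_comm, Nat.add_mul_div_right _ _ hb, Nat.div_eq_of_lt (by omega)]; simp
    rw [CC_succ, nb_succ]
    rw [← Nat.add_assoc]
    by_cases hB : Bd P f piv smp (a * P.b + n)
    · rw [if_pos hB]
      have h1 := bad_step hP hf hT hik
      have e : 2 * P.w * (nb P f piv smp (a * P.b) n + 1) =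
        2 * P.w * nb P f piv smp (a * P.b) n + 2 * P.w := by ring
      have e2 : 8 * P.g * (n + 1) = 8 * P.g * n + 8 * P.g := by ring
      rw [e, e2]
      omega
    · rw [if_neg hB, Nat.add_zero (nb P f piv smp (a * P.b) n)]
      have h1 : ∃ p ∈ piv, p ∈ NN P f (a * P.b + n) := by
        by_contra hc
        push Not at hc
        apply hB
        by_cases hd : P.d ≤ (NN P f (a * P.b + n)).card
        · exact Or.inl ⟨hd, hc⟩
        · refine Or.inr ⟨by omega, ?_⟩
          rw [hdiv]; exact hno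
      have h2 := good_step hP hf hT hik h1
      have e2 : 8 * P.g * (n + 1) = 8 * P.g * n + 8 * P.g := by ring
      rw [e2]
      omega

theorem block_any (hP : P.Ok) (hf : Al P f) (hT : P.Tab A B F out piv smp S)
    (hS : P.IsNear S) (hsb : ∀ r ∈ smp, r < P.b) {a : ℕ} (ha : a < P.K) :
    F ((a + 1) * P.b) (qq P f ((a + 1) * P.b)) ≤ F (a * P.b) (qq P f (a * P.b)) +
      10 * CC P f (a * P.b) P.b + 8 * P.g * P.b + 2 * P.w * nb P f piv smp (a * P.b) P.b := by
  by_cases h : ∃ r ∈ smp, (NN P f (a * P.b + r)).card < P.d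
  · obtain ⟨r, hr, hs⟩ := h
    have h1 := block_step hP hf hT hS ha hr (hsb r hr) hs
    have h2 : 8 * P.g * 1 ≤ 8 * P.g * P.b := Nat.mul_le_mul_left _ hP.b0
    omega
  · push Not at h
    have h1 := win_range hP hf hT ha h P.b le_rfl
    rw [show (a + 1) * P.b = a * P.b + P.b by ring]
    exact h1

theorem path_le (hP : P.Ok) (hf : Al P f) (hT : P.Tab A B F out piv smp S)
    (hS : P.IsNear S) (hsb : ∀ r ∈ smp, r < P.b) (a : ℕ) (ha : a ≤ P.K) :
    F (a * P.b) (qq P f (a * P.b)) ≤ 10 * CC P f 0 (a * P.b) + 8 * P.g * (a * P.b) +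
      2 * P.w * nb P f piv smp 0 (a * P.b) := by
  induction a with
  | zero =>
    have h1 : qq P f 0 = 0 := by unfold qq; rw [hf.f0]; simp
    simp [h1, hT.F0]
  | succ a ih =>
    have ih := ih (by omega)
    have h1 := block_any hP hf hT hS hsb (a := a) (by omega)
    have e : (a + 1) * P.b = a * P.b + P.b := by ring
    have e1 : CC P f 0 ((a + 1) * P.b) = CC P f 0 (a * P.b) + CC P f (a * P.b) P.b := by
      rw [e, CC_add]
    have e2 : nb P f piv smp 0 ((a + 1) * P.b) =
        nb P f piv smp 0 (a * P.b) + nb P f piv smp (a * P.b) P.b := by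
      rw [e, nb_add]
    have e3 : 8 * P.g * ((a + 1) * P.b) = 8 * P.g * (a * P.b) + 8 * P.g * P.b := by ring
    rw [e1, e2, e3, Nat.mul_add, Nat.mul_add]
    omega

/-- **Deterministic bound.** -/
theorem out_le (hP : P.Ok) (hf : Al P f) (hT : P.Tab A B F out piv smp S)
    (hS : P.IsNear S) (hsb : ∀ r ∈ smp, r < P.b) :
    out ≤ 10 * P.D + 11 * (P.b * P.w) + P.g + 8 * P.g * P.k +
      2 * P.w * nb P f piv smp 0 P.k := by
  have h1 := path_le hP hf hT hS hsb P.K le_rfl
  have h2 := hT.out _ (qq_lt hP hf P.k)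
  have h3 := hf.sum
  have e : (∑ i ∈ Finset.range P.k, dist P.X P.Y (P.px + i * P.w) P.w (P.py + f i)
    (f (i + 1) - f i)) = CC P f 0 P.k := by
    unfold CC cc; simp
  rw [e] at h3
  have h4 := qq_lo hP P.k (f := f)
  have h5 := qq_hi hP P.k (f := f)
  have h6 := hf.fly P.k
  have h7 := hP.k2
  change F P.k (qq P f P.k) ≤ 10 * CC P f 0 P.k + 8 * P.g * P.k +
    2 * P.w * nb P f piv smp 0 P.k at h1
  omega

/-! ### Averages -/

theorem bern (M n : ℕ) (h : n ≤ M) (s : ℕ) : (M - n) ^ s * (M + s * n) ≤ M ^ (s + 1) := by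
  obtain ⟨c, rfl⟩ := Nat.exists_eq_add_of_le h
  rw [Nat.add_sub_cancel_left]
  induction s with
  | zero => simp
  | succ s ih =>
    have h1 : c * (n + c + (s + 1) * n) ≤ (n + c) * (n + c + s * n) := by
      have : (n + c) * (n + c + s * n) = c * (n + c + (s + 1) * n) + n * (n + s * n) := by ring
      omega
    calc c ^ (s + 1) * (n + c + (s + 1) * n) = c ^ s * (c * (n + c + (s + 1) * n)) := by ring
      _ ≤ c ^ s * ((n + c) * (n + c + s * n)) := Nat.mul_le_mul_left _ h1
      _ = (n + c) * (c ^ s * (n + c + s * n)) := by ring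
      _ ≤ (n + c) * (n + c) ^ (s + 1) := Nat.mul_le_mul_left _ ih
      _ = (n + c) ^ (s + 1 + 1) := by ring

theorem bern1 {M n d : ℕ} (h : n ≤ M) (hd : d ≤ n) (s : ℕ) :
    s * d * (M - n) ^ s ≤ M ^ (s + 1) := by
  refine le_trans ?_ (bern M n h s)
  calc s * d * (M - n) ^ s = (M - n) ^ s * (s * d) := by ring
    _ ≤ (M - n) ^ s * (M + s * n) := Nat.mul_le_mul_left _ (by nlinarith [Nat.zero_le M])

theorem bern2 {b n : ℕ} (h : n ≤ b) (R : ℕ) : (R + 1) * (n * (b - n) ^ R) ≤ b ^ (R + 1) := by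
  refine le_trans ?_ (bern b n h R)
  calc (R + 1) * (n * (b - n) ^ R) = (b - n) ^ R * (n + R * n) := by ring
    _ ≤ (b - n) ^ R * (b + R * n) := Nat.mul_le_mul_left _ (by omega)

open Classical in
/-- Number of maps `Fin s → Fin M` that avoid a set. -/
theorem card_avoid (s M : ℕ) (N : Finset ℕ) (hN : N ⊆ Finset.range M) :
    (Finset.univ.filter (fun p : Fin s → Fin M => ∀ t, (p t : ℕ) ∉ N)).card =
      (M - N.card) ^ s := by
  have h1 : (Finset.univ.filter (fun p : Fin s → Fin M => ∀ t, (p t : ℕ) ∉ N)) =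
      Fintype.piFinset (fun _ : Fin s => Finset.univ.filter (fun x : Fin M => (x : ℕ) ∉ N)) := by
    ext p
    simp [Fintype.mem_piFinset]
  rw [h1, Fintype.card_piFinset]
  simp only [Finset.prod_const, Finset.card_univ, Fintype.card_fin]
  congr 1
  have h2 : (Finset.univ.filter (fun x : Fin M => (x : ℕ) ∉ N)).card =
      ((Finset.range M).filter (fun x => x ∉ N)).card := by
    rw [← Finset.card_map Fin.valEmbedding]
    congr 1
    ext x
    simp only [Finset.mem_map, Finset.mem_filter, Finset.mem_univ, true_and,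
      Fin.valEmbedding_apply, Finset.mem_range]
    constructor
    · rintro ⟨y, hy, rfl⟩; exact ⟨y.2, hy⟩
    · rintro ⟨hx, hx'⟩; exact ⟨⟨x, hx⟩, hx', rfl⟩
  rw [h2, Finset.filter_notMem_eq_sdiff, Finset.card_sdiff_of_subset hN, Finset.card_range]

/-- Pivots. -/
def pv {s M : ℕ} (p : Fin s → Fin M) : Finset ℕ := Finset.univ.image (fun t => (p t : ℕ))

theorem forall_pv {s M : ℕ} (p : Fin s → Fin M) (Q : ℕ → Prop) :
    (∀ x ∈ pv p, Q x) ↔ ∀ t, Q (p t) := by
  simp [pv]

theorem sum_blocks (b K : ℕ) (φ : ℕ → ℕ) : ∑ i ∈ Finset.range (K * b), φ i =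
    ∑ a ∈ Finset.range K, ∑ r ∈ Finset.range b, φ (a * b + r) := by
  induction K with
  | zero => simp
  | succ K ih =>
    rw [Finset.sum_range_succ, ← ih, Nat.succ_mul, Finset.sum_range_add]

open Classical in
theorem sum_nb (hP : P.Ok) (f : ℕ → ℕ) (s R : ℕ) :
    (s * P.d * (R + 1)) * ∑ p : Fin s → Fin P.M, ∑ r : Fin R → Fin P.b,
      nb P f (pv p) (pv r) 0 P.k ≤
      P.M ^ s * P.b ^ R * (P.k * ((R + 1) * P.M + s * P.d)) := by
  -- split into the two kinds of bad windows
  have hsplit : ∀ (p : Fin s → Fin P.M) (r : Fin R → Fin P.b), nb P f (pv p) (pv r) 0 P.k ≤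
      (∑ i ∈ Finset.range P.k, if P.d ≤ (NN P f i).card ∧ ∀ t, (p t : ℕ) ∉ NN P f i
        then 1 else 0) +
      ∑ i ∈ Finset.range P.k, if (NN P f i).card < P.d ∧
        ∀ t, P.d ≤ (NN P f (i / P.b * P.b + r t)).card then 1 else 0 := by
    intro p r
    unfold nb
    rw [Finset.card_filter, ← Finset.sum_add_distrib]
    apply Finset.sum_le_sum
    intro i _
    simp only [Nat.zero_add, Bd, forall_pv]
    split_ifs <;> simp_all
  have h1 : ∀ i, s * P.d * ∑ p : Fin s → Fin P.M,
      (if P.d ≤ (NN P f i).card ∧ ∀ t, (p t : ℕ) ∉ NN P f i then 1 else 0) ≤ P.M ^ (s + 1) := by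
    intro i
    have hN : NN P f i ⊆ Finset.range P.M := Finset.filter_subset _ _
    have hc : (NN P f i).card ≤ P.M := by simpa using Finset.card_le_card hN
    by_cases hd : P.d ≤ (NN P f i).card
    · simp only [hd, true_and]
      rw [← Finset.card_filter, card_avoid s P.M _ hN]
      exact bern1 hc hd s
    · simp [hd]
  have h2 : ∀ a, (R + 1) * ∑ j ∈ Finset.range P.b, ∑ r : Fin R → Fin P.b,
      (if (NN P f (a * P.b + j)).card < P.d ∧
        ∀ t, P.d ≤ (NN P f ((a * P.b + j) / P.b * P.b + r t)).card then 1 else 0) ≤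
      P.b ^ (R + 1) := by
    intro a
    set Sp := (Finset.range P.b).filter (fun r => (NN P f (a * P.b + r)).card < P.d) with hSp
    have hSs : Sp ⊆ Finset.range P.b := Finset.filter_subset _ _
    have hSc : Sp.card ≤ P.b := by simpa using Finset.card_le_card hSs
    have e : ∀ j ∈ Finset.range P.b, (∑ r : Fin R → Fin P.b,
        (if (NN P f (a * P.b + j)).card < P.d ∧
        ∀ t, P.d ≤ (NN P f ((a * P.b + j) / P.b * P.b + r t)).card then 1 else 0)) =
        if j ∈ Sp then (P.b - Sp.card) ^ R else 0 := by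
      intro j hj
      have hj' : j < P.b := Finset.mem_range.mp hj
      have hdiv : (a * P.b + j) / P.b = a := by
        rw [Nat.add_comm, Nat.add_mul_div_right _ _ hP.b0, Nat.div_eq_of_lt hj']; simp
      rw [hdiv]
      by_cases hjs : (NN P f (a * P.b + j)).card < P.d
      · have : j ∈ Sp := Finset.mem_filter.mpr ⟨hj, hjs⟩
        rw [if_pos this, ← card_avoid R P.b Sp hSs, Finset.card_filter]
        apply Finset.sum_congr rfl
        intro r _
        congr 1
        simp only [hjs, true_and, hSp, Finset.mem_filter, Finset.mem_range, not_and, not_lt,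
          eq_iff_iff]
        constructor
        · intro h t _; exact h t
        · intro h t; exact h t (r t).2
      · have : j ∉ Sp := by
          intro h; exact hjs (Finset.mem_filter.mp h).2
        rw [if_neg this]
        simp [hjs]
    rw [Finset.sum_congr rfl e, Finset.sum_ite_mem, Finset.inter_eq_right.mpr hSs,
      Finset.sum_const, smul_eq_mul]
    exact bern2 hSc R
  calc (s * P.d * (R + 1)) * ∑ p : Fin s → Fin P.M, ∑ r : Fin R → Fin P.b,
        nb P f (pv p) (pv r) 0 P.k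
      ≤ (s * P.d * (R + 1)) * ∑ p : Fin s → Fin P.M, ∑ r : Fin R → Fin P.b,
        ((∑ i ∈ Finset.range P.k, if P.d ≤ (NN P f i).card ∧ ∀ t, (p t : ℕ) ∉ NN P f i
          then 1 else 0) +
        ∑ i ∈ Finset.range P.k, if (NN P f i).card < P.d ∧
          ∀ t, P.d ≤ (NN P f (i / P.b * P.b + r t)).card then 1 else 0) := by
        apply Nat.mul_le_mul_left
        apply Finset.sum_le_sum; intro p _
        apply Finset.sum_le_sum; intro r _
        exact hsplit p r
    _ = (R + 1) * P.b ^ R * (∑ i ∈ Finset.range P.k, s * P.d * ∑ p : Fin s → Fin P.M,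
          (if P.d ≤ (NN P f i).card ∧ ∀ t, (p t : ℕ) ∉ NN P f i then 1 else 0)) +
        (s * P.d) * P.M ^ s * ((R + 1) * ∑ i ∈ Finset.range P.k, ∑ r : Fin R → Fin P.b,
          (if (NN P f i).card < P.d ∧
          ∀ t, P.d ≤ (NN P f (i / P.b * P.b + r t)).card then 1 else 0)) := by
        simp only [Finset.sum_add_distrib, Finset.sum_const, Finset.card_univ, smul_eq_mul,
          Fintype.card_fun, Fintype.card_fin]
        simp only [← Finset.mul_sum]
        rw [Finset.sum_comm (s := (Finset.univ : Finset (Fin s → Fin P.M)))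
          (t := Finset.range P.k)]
        rw [Finset.sum_comm (s := (Finset.univ : Finset (Fin R → Fin P.b)))
          (t := Finset.range P.k)]
        ring
    _ ≤ (R + 1) * P.b ^ R * (P.k * P.M ^ (s + 1)) +
        (s * P.d) * P.M ^ s * (P.K * P.b ^ (R + 1)) := by
        apply Nat.add_le_add
        · apply Nat.mul_le_mul_left
          calc _ ≤ ∑ i ∈ Finset.range P.k, P.M ^ (s + 1) :=
                Finset.sum_le_sum (fun i _ => h1 i)
            _ = _ := by rw [Finset.sum_const, Finset.card_range, smul_eq_mul]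
        · apply Nat.mul_le_mul_left
          unfold Pm.k
          rw [sum_blocks, Finset.mul_sum]
          calc _ ≤ ∑ a ∈ Finset.range P.K, P.b ^ (R + 1) :=
                Finset.sum_le_sum (fun a _ => h2 a)
            _ = _ := by rw [Finset.sum_const, Finset.card_range, smul_eq_mul]
    _ = P.M ^ s * P.b ^ R * (P.k * ((R + 1) * P.M + s * P.d)) := by
        unfold Pm.k; ring

/-- **The average output** over uniform pivots `p` and uniform offsets `r`. -/
theorem avg_out (hP : P.Ok) {s R : ℕ} (out : (Fin s → Fin P.M) → (Fin R → Fin P.b) → ℕ)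
    (hs : 0 < s * P.d)
    (h : ∀ p r, ∃ A B F S, P.Tab A B F (out p r) (pv p) (pv r) S ∧ P.IsNear S) :
    (∑ p, ∑ r, (out p r : ℝ)) ≤ (P.M : ℝ) ^ s * (P.b : ℝ) ^ R *
      (10 * P.D + 11 * (P.b * P.w) + P.g + 8 * P.g * P.k +
        2 * P.w * P.k * ((P.M : ℝ) / (s * P.d) + 1 / (R + 1))) := by
  obtain ⟨f, hf⟩ := exists_al hP
  have h1 : ∀ p r, (out p r : ℝ) ≤ (10 * P.D + 11 * (P.b * P.w) + P.g + 8 * P.g * P.k) +
      2 * P.w * (nb P f (pv p) (pv r) 0 P.k : ℝ) := by
    intro p r
    obtain ⟨A, B, F, S, hT, hS⟩ := h p r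
    have h2 := out_le hP hf hT hS (fun x hx => by
      obtain ⟨t, _, rfl⟩ := Finset.mem_image.mp hx
      exact (r t).2)
    exact_mod_cast h2
  have h3 := sum_nb hP f s R
  have h3' : (s * P.d * (R + 1) : ℝ) * ∑ p : Fin s → Fin P.M, ∑ r : Fin R → Fin P.b,
      (nb P f (pv p) (pv r) 0 P.k : ℝ) ≤
      P.M ^ s * P.b ^ R * (P.k * ((R + 1) * P.M + s * P.d)) := by
    exact_mod_cast h3
  have hs' : (0 : ℝ) < s * P.d := by exact_mod_cast hs
  have hR : (0 : ℝ) < (R : ℝ) + 1 := by positivity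
  have h4 : ∑ p : Fin s → Fin P.M, ∑ r : Fin R → Fin P.b, (nb P f (pv p) (pv r) 0 P.k : ℝ) ≤
      (P.M : ℝ) ^ s * (P.b : ℝ) ^ R * (P.k * ((P.M : ℝ) / (s * P.d) + 1 / (R + 1))) := by
    have e : (P.M : ℝ) ^ s * (P.b : ℝ) ^ R * (P.k * ((P.M : ℝ) / (s * P.d) + 1 / (R + 1))) =
      (P.M ^ s * P.b ^ R * (P.k * ((R + 1) * P.M + s * P.d))) / (s * P.d * (R + 1)) := by
      have hs'' := hs'.ne'
      have hR' := hR.ne'
      have hs1 : (s : ℝ) ≠ 0 := left_ne_zero_of_mul hs''
      have hs2 : (P.d : ℝ) ≠ 0 := right_ne_zero_of_mul hs''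
      field_simp
    rw [e, le_div_iff₀ (by positivity)]
    linarith
  calc (∑ p, ∑ r, (out p r : ℝ)) ≤ ∑ p : Fin s → Fin P.M, ∑ r : Fin R → Fin P.b,
        ((10 * P.D + 11 * (P.b * P.w) + P.g + 8 * P.g * P.k) +
          2 * P.w * (nb P f (pv p) (pv r) 0 P.k : ℝ)) := by
        apply Finset.sum_le_sum; intro p _
        apply Finset.sum_le_sum; intro r _
        exact h1 p r
    _ = (P.M : ℝ) ^ s * (P.b : ℝ) ^ R * (10 * P.D + 11 * (P.b * P.w) + P.g + 8 * P.g * P.k) +
        2 * P.w * ∑ p : Fin s → Fin P.M, ∑ r : Fin R → Fin P.b,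
          (nb P f (pv p) (pv r) 0 P.k : ℝ) := by
        simp only [Finset.sum_add_distrib, Finset.sum_const, Finset.card_univ, nsmul_eq_mul,
          Fintype.card_fun, Fintype.card_fin, ← Finset.mul_sum]
        push_cast
        ring
    _ ≤ (P.M : ℝ) ^ s * (P.b : ℝ) ^ R * (10 * P.D + 11 * (P.b * P.w) + P.g + 8 * P.g * P.k) +
        2 * P.w * ((P.M : ℝ) ^ s * (P.b : ℝ) ^ R *
          (P.k * ((P.M : ℝ) / (s * P.d) + 1 / (R + 1)))) := by
        have : (0 : ℝ) ≤ 2 * P.w := by positivity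
        nlinarith [mul_le_mul_of_nonneg_left h4 this]
    _ = _ := by ring

end Vale.Agent.P315.H36
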