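import Vale.Agent.P315.H36.Fin
import Vale.Agent.P315.H54.Geo

/-! The visible cost of the multiplicative version: the value of the base algorithm in the
antidiagonal coordinates of `H54`, as a pure function of the hubs and the offsets. -/

set_option autoImplicit false

namespace Vale.Agent.P315.H36

open Vale.Agent.P315 Vale.Agent.P315.H142 Vale.Agent.P315.H54

namespace SP

/-- Visible cost from position `u` at time `t` to position `v` at time `t'`. -/
noncomputable def visE (q : SP) (X Y hub off : ℕ → ℕ) (t u t' v : ℕ) : ℕ :=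
  min (startVal ((q.pm X Y u (t - u)).ends (v - u) ((t' - v) - (t - u))) q.s hub q.R off)
    ((v - u) + ((t' - v) - (t - u)))

variable {q : SP} {X Y : ℕ → ℕ}

/-- Certified. -/
theorem En_le_visE (h : q.Ok) (hub off : ℕ → ℕ) {t u t' v : ℕ}
    (hl : (t' - v) - (t - u) < 2 ^ (q.e + 1)) :
    En X Y t u t' v ≤ q.visE X Y hub off t u t' v := by
  refine le_min ?_ ?_
  · exact start_ge h u (t - u) hl q.s hub q.R off
  · exact Ed_le X Y _ _ _ _

/-- At most the trivial cost. -/
theorem visE_le (hub off : ℕ → ℕ) (t u t' v : ℕ) :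
    q.visE X Y hub off t u t' v ≤ (v - u) + ((t' - v) - (t - u)) := min_le_right _ _

theorem visE_le_len (hub off : ℕ → ℕ) {t u t' v : ℕ} (h1 : u ≤ v) (h2 : t - u ≤ t' - v)
    (h3 : u ≤ t) (h4 : v ≤ t') : q.visE X Y hub off t u t' v ≤ t' - t := by
  refine (visE_le hub off t u t' v).trans ?_
  omega

/-- Hubs read off a tape. -/
def hubOf (q : SP) (o : ℕ) (ρ : ℕ → ℕ) (i : ℕ) : ℕ := ρ (o + i) % q.M

/-- Offsets read off a tape. -/
def offOf (q : SP) (o : ℕ) (ρ : ℕ → ℕ) (i : ℕ) : ℕ := ρ (o + q.s + i) % q.b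

open Classical in
/-- **All `K` rows are good with probability at least `63/64`.** -/
theorem vis_rows (h : q.Ok) {N Tn o : ℕ} (hN : 0 < N) (hMN : q.M ∣ N) (hbN : q.b ∣ N)
    (ho : o + q.s + q.R ≤ Tn) (K : ℕ) (hK : K ≤ 2 ^ q.kap) (t u t' v : ℕ → ℕ)
    (hr : ∀ i < K, v i - u i < 2 ^ (q.e + 1) ∧
      (t' i - v i) - (t i - u i) < 2 ^ (q.e + 1)) :
    64 * (Finset.univ.filter (fun ρ : Fin Tn → Fin N =>
      ∃ i < K, 10 * En X Y (t i) (u i) (t' i) (v i) + 2 ^ (q.e - q.lam) <
        q.visE X Y (q.hubOf o (tape ρ)) (q.offOf o (tape ρ)) (t i) (u i) (t' i) (v i))).card ≤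
      N ^ Tn := by
  let T : Finset (ℕ × ℕ × ℕ × ℕ) := (Finset.range K).image (fun i =>
    (u i, v i - u i, t i - u i, (t' i - v i) - (t i - u i)))
  have hT : T.card ≤ 2 ^ q.kap := by
    refine (Finset.card_image_le).trans ?_
    rw [Finset.card_range]; exact hK
  have h1 := start_tape (X := X) (Y := Y) h hN hMN hbN ho T hT (fun z hz => by
    obtain ⟨i, hi, rfl⟩ := Finset.mem_image.mp hz
    exact hr i (Finset.mem_range.mp hi))
  refine le_trans (Nat.mul_le_mul_left 64 (Finset.card_le_card ?_)) h1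
  intro ρ hρ
  obtain ⟨i, hi, hlt⟩ := (Finset.mem_filter.mp hρ).2
  refine Finset.mem_filter.mpr ⟨Finset.mem_univ _, (u i, v i - u i, t i - u i,
    (t' i - v i) - (t i - u i)), Finset.mem_image.mpr ⟨i, Finset.mem_range.mpr hi, rfl⟩, ?_⟩
  exact hlt.trans_le (min_le_left _ _)

end SP

end Vale.Agent.P315.H36
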