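import Vale.Agent.P315.H36.VisRun
import Vale.Agent.P315.H54.ChainM

/-! The table of the visible costs as a list (row-major), and its entries as values of the visible
costs `H54.visM`. -/

set_option autoImplicit false

namespace Vale.Agent.P315.H36

open Vale.Agent.P315 Vale.Agent.P315.H142 Vale.Agent.P315.H54

/-- The table. -/
noncomputable def visL (T : Tb) (q : SP) (X Y hub off : ℕ → ℕ) : List ℕ :=
  (List.range (T.Kr * T.nS * T.nE)).map
    (fun a => T.entry q X Y hub off (a / T.nE / T.nS) (a / T.nE % T.nS) (a % T.nE))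

section
variable {T : Tb} {q : SP} {X Y hub off : ℕ → ℕ}

theorem length_visL : (visL T q X Y hub off).length = T.Kr * T.nS * T.nE := by simp [visL]

theorem getD_visL {a : ℕ} (ha : a < T.Kr * T.nS * T.nE) :
    (visL T q X Y hub off).getD a 0 =
      T.entry q X Y hub off (a / T.nE / T.nS) (a / T.nE % T.nS) (a % T.nE) := by
  rw [List.getD_eq_getElem?_getD, List.getElem?_eq_getElem (by rw [length_visL]; exact ha),
    Option.getD_some]
  simp [visL]

theorem idx_lt {i r e : ℕ} (hi : i < T.Kr) (hr : r < T.nS) (he : e < T.nE) :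
    (i * T.nS + r) * T.nE + e < T.Kr * T.nS * T.nE := by
  have h1 : i * T.nS + r + 1 ≤ T.Kr * T.nS := by
    have : (i + 1) * T.nS ≤ T.Kr * T.nS := Nat.mul_le_mul_right _ hi
    rw [Nat.add_mul, Nat.one_mul] at this
    omega
  have h2 := Nat.mul_le_mul_right T.nE h1
  rw [Nat.add_mul, Nat.one_mul] at h2
  omega

theorem idx_div {i r e : ℕ} (hr : r < T.nS) (he : e < T.nE) :
    ((i * T.nS + r) * T.nE + e) / T.nE / T.nS = i ∧
    ((i * T.nS + r) * T.nE + e) / T.nE % T.nS = r ∧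
    ((i * T.nS + r) * T.nE + e) % T.nE = e := by
  have hE : 0 < T.nE := by omega
  have hS : 0 < T.nS := by omega
  have e1 : ((i * T.nS + r) * T.nE + e) / T.nE = i * T.nS + r := by
    rw [Nat.mul_comm, Nat.mul_add_div hE, Nat.div_eq_of_lt he, Nat.add_zero]
  refine ⟨?_, ?_, ?_⟩
  · rw [e1, Nat.mul_comm, Nat.mul_add_div hS, Nat.div_eq_of_lt hr, Nat.add_zero]
  · rw [e1, Nat.mul_comm, Nat.mul_add_mod, Nat.mod_eq_of_lt hr]
  · rw [Nat.mul_comm, Nat.mul_add_mod, Nat.mod_eq_of_lt he]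

theorem getD_visL_idx {i r e : ℕ} (hi : i < T.Kr) (hr : r < T.nS) (he : e < T.nE) :
    (visL T q X Y hub off).getD ((i * T.nS + r) * T.nE + e) 0 = T.entry q X Y hub off i r e := by
  rw [getD_visL (idx_lt hi hr he)]
  obtain ⟨h1, h2, h3⟩ := idx_div (T := T) (i := i) hr he
  rw [h1, h2, h3]

/-- An array which holds all entries is the list. -/
theorem arr_visL {f : ℕ → ℕ} (h : ∀ i < T.Kr, ∀ r < T.nS, ∀ e < T.nE,
    f ((i * T.nS + r) * T.nE + e) = T.entry q X Y hub off i r e) :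
    ∀ a < T.Kr * T.nS * T.nE, f a = (visL T q X Y hub off).getD a 0 := by
  intro a ha
  have hE : 0 < T.nE := Nat.pos_of_ne_zero fun h0 => by rw [h0, Nat.mul_zero] at ha; omega
  have hS : 0 < T.nS := Nat.pos_of_ne_zero fun h0 => by
    rw [h0, Nat.mul_zero, Nat.zero_mul] at ha; omega
  rw [getD_visL ha]
  have h1 : a / T.nE < T.Kr * T.nS := (Nat.div_lt_iff_lt_mul hE).2 ha
  have h2 : a / T.nE / T.nS < T.Kr := (Nat.div_lt_iff_lt_mul hS).2 h1
  rw [← h _ h2 _ (Nat.mod_lt _ hS) _ (Nat.mod_lt _ hE)]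
  congr 1
  rw [Nat.div_add_mod', Nat.div_add_mod']

/-! ### Values -/

/-- The entry is the visible cost between mesh points. -/
theorem entry_eq (i r e : ℕ) : T.entry q X Y hub off i r e =
    visM q X Y hub off T.l2 T.c0 i (T.mu * r) (T.mu * r + T.mu * e - T.l2) := rfl

/-- The visible cost of an admissible step between mesh points. -/
theorem entry_mesh (hd : T.mu ∣ T.l2) {i p p' : ℕ} (hp : T.mu ∣ p)
    (hp' : T.mu ∣ p') (h1 : p ≤ p' + T.l2) :
    T.entry q X Y hub off i (p / T.mu) ((p' + T.l2 - p) / T.mu) =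
      visM q X Y hub off T.l2 T.c0 i p p' := by
  rw [entry_eq, Nat.mul_div_cancel' hp,
    Nat.mul_div_cancel' (Nat.dvd_sub (hp'.add hd) hp)]
  congr 1
  omega

/-- Reading the table. -/
theorem getD_mesh (hd : T.mu ∣ T.l2) (hnE : 2 * T.l2 / T.mu < T.nE)
    {i p p' : ℕ} (hi : i < T.Kr) (hp : T.mu ∣ p) (hp' : T.mu ∣ p') (hs : p / T.mu < T.nS)
    (h1 : p ≤ p' + T.l2) (h2 : p' ≤ p + T.l2) :
    (visL T q X Y hub off).getD
      ((i * T.nS + p / T.mu) * T.nE + (p' + T.l2 - p) / T.mu) 0 =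
      visM q X Y hub off T.l2 T.c0 i p p' := by
  rw [getD_visL_idx hi hs ?_, entry_mesh hd hp hp' h1]
  exact lt_of_le_of_lt (Nat.div_le_div_right (by omega)) hnE

/-- All entries are at most the length of a row. -/
theorem entry_le {i r e : ℕ} (he : T.mu * e ≤ 2 * T.l2) :
    T.entry q X Y hub off i r e ≤ 2 * T.l2 := by
  rw [entry_eq]
  exact visM_le (by omega) (by omega)

theorem mem_visL_le (hE : ∀ e < T.nE, T.mu * e ≤ 2 * T.l2) {v : ℕ}
    (hv : v ∈ visL T q X Y hub off) : v ≤ 2 * T.l2 := by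
  unfold visL at hv
  obtain ⟨a, ha, rfl⟩ := List.mem_map.mp hv
  have ha' := List.mem_range.mp ha
  have hE0 : 0 < T.nE := Nat.pos_of_ne_zero fun h0 => by rw [h0, Nat.mul_zero] at ha'; omega
  exact entry_le (hE _ (Nat.mod_lt _ hE0))

end

end Vale.Agent.P315.H36
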