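import Vale.Agent.P315.H36.VisRun
import Vale.Agent.P315.H155.Auto

/-! The parameters of the START phase as functions of the lengths: polynomial time, bounds.

Registers (the list of `H933/Pre`): `80` grid step, `81` windows per block, `82` blocks, `83` hubs,
`84` near grid points, `85` sampled offsets, `86` window length in grid steps, `87` grid points,
`88` rows, `89` starts, `90` ends, `91` mesh, `92` half of the length of a row, `93` origin, `94`
bound of the numbers, `95` bound of the loops, `96` budget. -/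

set_option autoImplicit false

namespace Vale.Agent.P315.H36

open Vale.Agent.Lib.PolyTime Vale.Agent.P315.H155

variable {A : Set Word} {α : Type*} [Enc α] {e lam kap : α → ℕ}

section
variable (he : PT A e) (hl : PT A lam) (hk : PT A kap) (be : PBd e) (bl : PBd lam) (bk : PBd kap)
include he hl be bl

omit bl in
theorem PT_g : PT A (fun p => (SP.mk (e p) (lam p) (kap p)).g) := by
  unfold SP.g SP.lg SP.lw; fun_prop

omit bl in
theorem PT_M : PT A (fun p => (SP.mk (e p) (lam p) (kap p)).M) := by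
  unfold SP.M SP.lM SP.lg SP.lw; fun_prop

omit he be in
theorem PT_v : PT A (fun p => (SP.mk (e p) (lam p) (kap p)).v) := by
  unfold SP.v; fun_prop

omit hl bl in
theorem PT_w : PT A (fun p => (SP.mk (e p) (lam p) (kap p)).w) := by
  unfold SP.w SP.lw; fun_prop

omit hl bl in
theorem PT_b : PT A (fun p => (SP.mk (e p) (lam p) (kap p)).b) := by
  unfold SP.b SP.lc SP.lw; fun_prop

omit hl bl in
theorem PT_K : PT A (fun p => (SP.mk (e p) (lam p) (kap p)).K) := by
  unfold SP.K SP.lc; fun_prop

omit hl bl in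
theorem PT_d : PT A (fun p => (SP.mk (e p) (lam p) (kap p)).d) := by
  unfold SP.d SP.ld; fun_prop

omit hl bl in
theorem PT_two_lc : PT A (fun p => 2 ^ (SP.mk (e p) (lam p) (kap p)).lc) := by
  unfold SP.lc; fun_prop

include hk bk

omit he be in
theorem PT_R : PT A (fun p => (SP.mk (e p) (lam p) (kap p)).R) := by
  unfold SP.R SP.lR; fun_prop

theorem PT_s : PT A (fun p => (SP.mk (e p) (lam p) (kap p)).s) := by
  unfold SP.s SP.ls SP.lR SP.lM SP.lg SP.lw SP.ld; fun_prop

theorem PT_loops : PT A (fun p => (SP.mk (e p) (lam p) (kap p)).loops) := by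
  unfold SP.loops; fun_prop

theorem PT_tot : PT A (fun p => (SP.mk (e p) (lam p) (kap p)).tot) := by
  have h1 := PT_M (kap := kap) he hl be
  have h2 := PT_w (lam := lam) (kap := kap) he be
  have h3 := PT_b (lam := lam) (kap := kap) he be
  have h4 := PT_K (lam := lam) (kap := kap) he be
  have h5 := PT_d (lam := lam) (kap := kap) he be
  have h6 := PT_R hl hk bl bk (e := e)
  have h7 := PT_s he hl hk be bl bk
  unfold SP.tot
  fun_prop

end

/-- Parameters of the START phase as functions. -/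
structure StF (α : Type*) where
  e : α → ℕ
  lam : α → ℕ
  kap : α → ℕ
  Kr : α → ℕ
  nS : α → ℕ
  mu : α → ℕ
  l2 : α → ℕ
  c0 : α → ℕ

namespace StF

variable (F : StF α) (p : α)

/-- Parameters of the base algorithm. -/
def q : SP := ⟨F.e p, F.lam p, F.kap p⟩

/-- Number of ends. -/
def nE : ℕ := 2 * F.l2 p / F.mu p + 1

/-- Geometry of the table. -/
def tb : Tb := ⟨F.Kr p, F.nS p, F.nE p, F.mu p, F.l2 p, F.c0 p⟩

/-- Bound of the loops. -/
def r4 : ℕ := (F.q p).loops + F.Kr p + F.nS p + F.nE p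

/-- Bound of the numbers. -/
def r3 : ℕ := F.Kr p * (2 * F.l2 p) + 2 ^ (F.e p + 3) +
  (2 ^ (F.q p).lc + 1) * (2 ^ (F.q p).lc + 2) + F.r4 p

/-- Budget. -/
def r5 : ℕ := F.Kr p * F.nS p * (F.q p).tot

/-- Number of seeds. -/
def nSd : ℕ := (F.q p).s + (F.q p).R

/-- Values of the parameter registers. -/
def val (i : ℕ) (p : α) : ℕ :=
  if i = 80 then (F.q p).g else if i = 81 then (F.q p).b else if i = 82 then (F.q p).K else
  if i = 83 then (F.q p).s else if i = 84 then (F.q p).d else if i = 85 then (F.q p).R else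
  if i = 86 then (F.q p).v else if i = 87 then (F.q p).M else if i = 88 then F.Kr p else
  if i = 89 then F.nS p else if i = 90 then F.nE p else if i = 91 then F.mu p else
  if i = 92 then F.l2 p else if i = 93 then F.c0 p else if i = 94 then F.r3 p else
  if i = 95 then F.r4 p else F.r5 p

/-- The parameter registers. -/
def regs : List ℕ := [80, 81, 82, 83, 84, 85, 86, 87, 88, 89, 90, 91, 92, 93, 94, 95, 96]

/-- Polynomial time parameters. -/
structure PTs (A : Set Word) (F : StF α) : Prop where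
  e : PT A F.e
  lam : PT A F.lam
  kap : PT A F.kap
  Kr : PT A F.Kr
  nS : PT A F.nS
  mu : PT A F.mu
  l2 : PT A F.l2
  c0 : PT A F.c0
  be : PBd F.e
  bl : PBd F.lam
  bk : PBd F.kap

variable {F} (h : F.PTs A)
include h

theorem PT_nE : PT A F.nE := by
  have h1 := h.mu
  have h2 := h.l2
  show PT A (fun p => 2 * F.l2 p / F.mu p + 1)
  fun_prop

theorem PT_r4 : PT A F.r4 := by
  have h1 := PT_loops h.e h.lam h.kap h.be h.bl h.bk
  have h2 := h.Kr
  have h3 := h.nS
  have h4 := PT_nE h
  show PT A (fun p => (SP.mk (F.e p) (F.lam p) (F.kap p)).loops + F.Kr p + F.nS p + F.nE p)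
  fun_prop

theorem PT_r3 : PT A F.r3 := by
  have h1 := PT_two_lc (lam := F.lam) (kap := F.kap) h.e h.be
  have h2 := h.Kr
  have h3 := h.l2
  have h4 := PT_r4 h
  have h5 := h.e
  have h6 := h.be
  show PT A (fun p => F.Kr p * (2 * F.l2 p) + 2 ^ (F.e p + 3) +
    (2 ^ (SP.mk (F.e p) (F.lam p) (F.kap p)).lc + 1) *
      (2 ^ (SP.mk (F.e p) (F.lam p) (F.kap p)).lc + 2) + F.r4 p)
  fun_prop

theorem PT_r5 : PT A F.r5 := by
  have h1 := PT_tot h.e h.lam h.kap h.be h.bl h.bk
  have h2 := h.Kr
  have h3 := h.nS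
  show PT A (fun p => F.Kr p * F.nS p * (SP.mk (F.e p) (F.lam p) (F.kap p)).tot)
  fun_prop

theorem PT_nSd : PT A F.nSd := by
  have h1 := PT_s h.e h.lam h.kap h.be h.bl h.bk
  have h2 := PT_R h.lam h.kap h.bl h.bk (e := F.e)
  show PT A (fun p => (SP.mk (F.e p) (F.lam p) (F.kap p)).s +
    (SP.mk (F.e p) (F.lam p) (F.kap p)).R)
  fun_prop

theorem PT_val (i : ℕ) : PT A (F.val i) := by
  have k1 := PT_g (kap := F.kap) h.e h.lam h.be
  have k2 := PT_b (lam := F.lam) (kap := F.kap) h.e h.be
  have k3 := PT_K (lam := F.lam) (kap := F.kap) h.e h.be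
  have k4 := PT_s h.e h.lam h.kap h.be h.bl h.bk
  have k5 := PT_d (lam := F.lam) (kap := F.kap) h.e h.be
  have k6 := PT_R h.lam h.kap h.bl h.bk (e := F.e)
  have k7 := PT_v (e := F.e) (kap := F.kap) h.lam h.bl
  have k8 := PT_M (kap := F.kap) h.e h.lam h.be
  have st : ∀ {j : ℕ} {f g : α → ℕ}, PT A f → PT A g →
      PT A (fun p => if i = j then f p else g p) := by
    intro j f g hf hg
    by_cases hij : i = j
    · simpa only [if_pos hij] using hf
    · simpa only [if_neg hij] using hg
  exact st k1 (st k2 (st k3 (st k4 (st k5 (st k6 (st k7 (st k8 (st h.Kr (st h.nS (st (PT_nE h)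
    (st h.mu (st h.l2 (st h.c0 (st (PT_r3 h) (st (PT_r4 h) (PT_r5 h))))))))))))))))

end StF

end Vale.Agent.P315.H36
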