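import Vale.Agent.P315.H36.ParPT

/-! Bounds for the parameters and for the time of the START phase. -/

set_option autoImplicit false

namespace Vale.Agent.P315.H36

namespace StF

variable {α : Type*} (F : StF α) (p : α)

/-- Time of the START phase. -/
def time : ℕ := phaseHP.sz * (F.r4 p + 2) ^ 6 + F.r5 p * 100

/-- All small quantities are at most `Z`. -/
structure Small (Z : ℕ) : Prop where
  ok : (F.q p).Ok
  lam : 2 ^ F.lam p ≤ Z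
  kap : 2 ^ F.kap p ≤ Z
  Kr : F.Kr p ≤ Z
  nS : F.nS p ≤ Z
  nE : F.nE p ≤ Z

variable {F p} {Z : ℕ}

theorem Small.one (h : F.Small p Z) : 1 ≤ Z := Nat.one_le_two_pow.trans h.lam

theorem Small.r4 (h : F.Small p Z) : F.r4 p + 2 ≤ 2 ^ 21 * Z ^ 3 * 2 ^ (F.e p / 5) := by
  have h1 := h.one
  have e1 : (F.q p).loops = 2 ^ 20 * ((2 ^ F.lam p) ^ 2 * 2 ^ F.kap p) * 2 ^ (F.e p / 5) := by
    show 2 ^ (F.e p / 5 + 20 + 2 * F.lam p + F.kap p) = _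
    rw [pow_add, pow_add, pow_add, pow_mul, ← pow_mul, ← pow_mul, Nat.mul_comm 2 (F.lam p)]
    ring
  have e2 : (2 ^ F.lam p) ^ 2 * 2 ^ F.kap p ≤ Z ^ 3 := by
    calc (2 ^ F.lam p) ^ 2 * 2 ^ F.kap p ≤ Z ^ 2 * Z :=
          Nat.mul_le_mul (Nat.pow_le_pow_left h.lam 2) h.kap
      _ = Z ^ 3 := by ring
  have h2 : 1 ≤ 2 ^ (F.e p / 5) := Nat.one_le_two_pow
  have h3 : Z ≤ Z ^ 3 := Nat.le_self_pow (by norm_num) Z
  have h4 : Z ^ 3 ≤ Z ^ 3 * 2 ^ (F.e p / 5) := Nat.le_mul_of_pos_right _ h2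
  have h5 : (F.q p).loops ≤ 2 ^ 20 * (Z ^ 3 * 2 ^ (F.e p / 5)) := by
    rw [e1]
    calc 2 ^ 20 * ((2 ^ F.lam p) ^ 2 * 2 ^ F.kap p) * 2 ^ (F.e p / 5)
        ≤ 2 ^ 20 * Z ^ 3 * 2 ^ (F.e p / 5) :=
          Nat.mul_le_mul_right _ (Nat.mul_le_mul_left _ e2)
      _ = _ := by ring
  have h6 := h.Kr
  have h7 := h.nS
  have h8 := h.nE
  have e3 : 2 ^ 21 * Z ^ 3 * 2 ^ (F.e p / 5) = 2 ^ 21 * (Z ^ 3 * 2 ^ (F.e p / 5)) := by ring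
  rw [e3]
  unfold StF.r4
  omega

theorem Small.r5 (h : F.Small p Z) :
    F.r5 p ≤ 2 ^ 30 * Z ^ 6 * 2 ^ (2 * F.e p - (F.q p).ld) := by
  have h1 := SP.tot_le h.ok
  have e1 : 2 ^ (30 + 3 * (F.q p).lam + (F.q p).kap + (2 * (F.q p).e - (F.q p).ld)) =
      2 ^ 30 * ((2 ^ F.lam p) ^ 3 * 2 ^ F.kap p) * 2 ^ (2 * F.e p - (F.q p).ld) := by
    show 2 ^ (30 + 3 * F.lam p + F.kap p + (2 * F.e p - (F.q p).ld)) = _
    rw [pow_add, pow_add, pow_add, ← pow_mul, Nat.mul_comm 3 (F.lam p)]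
    ring
  rw [e1] at h1
  have e2 : (2 ^ F.lam p) ^ 3 * 2 ^ F.kap p ≤ Z ^ 4 := by
    calc (2 ^ F.lam p) ^ 3 * 2 ^ F.kap p ≤ Z ^ 3 * Z :=
          Nat.mul_le_mul (Nat.pow_le_pow_left h.lam 3) h.kap
      _ = Z ^ 4 := by ring
  have e3 : F.Kr p * F.nS p ≤ Z ^ 2 := by
    calc F.Kr p * F.nS p ≤ Z * Z := Nat.mul_le_mul h.Kr h.nS
      _ = Z ^ 2 := by ring
  unfold StF.r5
  calc F.Kr p * F.nS p * (F.q p).tot
      ≤ Z ^ 2 * (2 ^ 30 * ((2 ^ F.lam p) ^ 3 * 2 ^ F.kap p) *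
          2 ^ (2 * F.e p - (F.q p).ld)) := Nat.mul_le_mul e3 h1
    _ ≤ Z ^ 2 * (2 ^ 30 * Z ^ 4 * 2 ^ (2 * F.e p - (F.q p).ld)) :=
        Nat.mul_le_mul_left _ (Nat.mul_le_mul_right _ (Nat.mul_le_mul_left _ e2))
    _ = _ := by ring

/-- The time of the START phase. -/
theorem Small.time_le (h : F.Small p Z) :
    F.time p ≤ (phaseHP.sz * 2 ^ 126 + 2 ^ 37) * (Z ^ 18 * 2 ^ (2 * F.e p - (F.q p).ld)) := by
  have h1 := h.one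
  have h2 := h.r4
  have h3 := h.r5
  obtain ⟨T, hT⟩ : ∃ T, T = 2 ^ (2 * F.e p - (F.q p).ld) := ⟨_, rfl⟩
  have e1 : (2 ^ 21 * Z ^ 3 * 2 ^ (F.e p / 5)) ^ 6 = 2 ^ 126 * (Z ^ 18 * 2 ^ (F.e p / 5 * 6)) := by
    rw [pow_mul]; ring
  have e2 : 2 ^ (F.e p / 5 * 6) ≤ T := by
    rw [hT]
    apply Nat.pow_le_pow_right (by norm_num)
    show F.e p / 5 * 6 ≤ 2 * F.e p - F.e p / 20
    omega
  have e3 : (F.r4 p + 2) ^ 6 ≤ 2 ^ 126 * (Z ^ 18 * T) := by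
    refine (Nat.pow_le_pow_left h2 6).trans ?_
    rw [e1]
    exact Nat.mul_le_mul_left _ (Nat.mul_le_mul_left _ e2)
  have e4 : Z ^ 6 ≤ Z ^ 18 := Nat.pow_le_pow_right h1 (by norm_num)
  have e5 : F.r5 p ≤ 2 ^ 30 * (Z ^ 18 * T) := by
    refine h3.trans ?_
    rw [← hT, Nat.mul_assoc]
    exact Nat.mul_le_mul_left _ (Nat.mul_le_mul_right _ e4)
  unfold StF.time
  rw [← hT]
  calc phaseHP.sz * (F.r4 p + 2) ^ 6 + F.r5 p * 100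
      ≤ phaseHP.sz * (2 ^ 126 * (Z ^ 18 * T)) + 2 ^ 30 * (Z ^ 18 * T) * 100 :=
        Nat.add_le_add (Nat.mul_le_mul_left _ e3) (Nat.mul_le_mul_right _ e5)
    _ ≤ phaseHP.sz * (2 ^ 126 * (Z ^ 18 * T)) + 2 ^ 37 * (Z ^ 18 * T) := by
        have : 2 ^ 30 * (Z ^ 18 * T) * 100 ≤ 2 ^ 37 * (Z ^ 18 * T) := by
          have e6 : 2 ^ 37 * (Z ^ 18 * T) = 2 ^ 30 * (Z ^ 18 * T) * 128 := by ring
          rw [e6]
          exact Nat.mul_le_mul_left _ (by norm_num)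
        omega
    _ = _ := by ring

/-- **The time in real powers.** -/
theorem exists_time : ∃ C : ℝ, 0 < C ∧ ∀ (α : Type) (F : StF α) (p : α) (Z l : ℕ),
    F.Small p Z → 2 ^ F.e p ≤ l → (F.time p : ℝ) ≤ C * ((Z : ℝ) ^ 18 * (l : ℝ) ^ (39 / 20 : ℝ)) := by
  refine ⟨((phaseHP.sz * 2 ^ 126 + 2 ^ 37 : ℕ) : ℝ) * 2, by positivity, ?_⟩
  intro α F p Z l h hl
  have h1 : (F.time p : ℝ) ≤ ((phaseHP.sz * 2 ^ 126 + 2 ^ 37) *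
      (Z ^ 18 * 2 ^ (2 * F.e p - (F.q p).ld)) : ℕ) := by exact_mod_cast h.time_le
  have h2 := SP.pow_le_rpow (q := F.q p) (l := l) hl
  have h3 : (((2 : ℕ) ^ (2 * F.e p - (F.q p).ld) : ℕ) : ℝ) ≤ 2 * (l : ℝ) ^ (39 / 20 : ℝ) := h2
  refine h1.trans ?_
  rw [Nat.cast_mul, Nat.cast_mul, Nat.cast_pow Z]
  calc ((phaseHP.sz * 2 ^ 126 + 2 ^ 37 : ℕ) : ℝ) *
        ((Z : ℝ) ^ 18 * (((2 : ℕ) ^ (2 * F.e p - (F.q p).ld) : ℕ) : ℝ))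
      ≤ ((phaseHP.sz * 2 ^ 126 + 2 ^ 37 : ℕ) : ℝ) *
        ((Z : ℝ) ^ 18 * (2 * (l : ℝ) ^ (39 / 20 : ℝ))) :=
        mul_le_mul_of_nonneg_left (mul_le_mul_of_nonneg_left h3 (by positivity)) (by positivity)
    _ = _ := by ring

/-- **Truly subquadratic time**, if all small quantities are powers of `K`, `K ^ Q ≤ N + 1`. -/
theorem exists_time_sub (c : ℕ) {C₁ C₂ : ℝ} (h₂ : 0 ≤ C₂) : ∃ C : ℝ, 0 < C ∧
    ∀ (α : Type) (F : StF α) (p : α) (Z l K Q N : ℕ), F.Small p Z → 2 ^ F.e p ≤ l → 1 ≤ K →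
      K ^ Q ≤ N + 1 → 720 * c ≤ Q → (Z : ℝ) ≤ C₁ * (K : ℝ) ^ c → (l : ℝ) ≤ C₂ * ((N : ℝ) + 1) →
      (F.time p : ℝ) ≤ C * ((N : ℝ) + 1) ^ (2 - 1 / 40 : ℝ) := by
  obtain ⟨C, hC, h⟩ := exists_time
  refine ⟨C * (C₁ ^ 18 * C₂ ^ (39 / 20 : ℝ)) + 1, by
    have : 0 ≤ C₁ ^ 18 := Even.pow_nonneg (by decide) C₁
    positivity, ?_⟩
  intro α F p Z l K Q N hs hl hK hKQ hQ hZ hl2
  have hN : (0 : ℝ) < (N : ℝ) + 1 := by positivity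
  have hK0 : (0 : ℝ) ≤ K := Nat.cast_nonneg K
  have e1 : (K : ℝ) ^ (18 * c) ≤ ((N : ℝ) + 1) ^ (1 / 40 : ℝ) := by
    have e2 : (K : ℝ) ^ (720 * c) ≤ (N : ℝ) + 1 := by
      have : K ^ (720 * c) ≤ N + 1 := (Nat.pow_le_pow_right hK hQ).trans hKQ
      exact_mod_cast this
    have e3 : (K : ℝ) ^ (18 * c) = ((K : ℝ) ^ (720 * c)) ^ (1 / 40 : ℝ) := by
      rw [← Real.rpow_natCast, ← Real.rpow_natCast, ← Real.rpow_mul hK0]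
      congr 1
      push_cast
      ring
    rw [e3]
    exact Real.rpow_le_rpow (by positivity) e2 (by norm_num)
  have e4 : (Z : ℝ) ^ 18 ≤ C₁ ^ 18 * ((N : ℝ) + 1) ^ (1 / 40 : ℝ) := by
    calc (Z : ℝ) ^ 18 ≤ (C₁ * (K : ℝ) ^ c) ^ 18 := pow_le_pow_left₀ (Nat.cast_nonneg Z) hZ 18
      _ = C₁ ^ 18 * (K : ℝ) ^ (18 * c) := by ring
      _ ≤ _ := mul_le_mul_of_nonneg_left e1 (Even.pow_nonneg (by decide) C₁)
  have e5 : (l : ℝ) ^ (39 / 20 : ℝ) ≤ C₂ ^ (39 / 20 : ℝ) * ((N : ℝ) + 1) ^ (39 / 20 : ℝ) := by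
    rw [← Real.mul_rpow h₂ hN.le]
    exact Real.rpow_le_rpow (Nat.cast_nonneg l) hl2 (by norm_num)
  have e6 : ((N : ℝ) + 1) ^ (1 / 40 : ℝ) * ((N : ℝ) + 1) ^ (39 / 20 : ℝ) =
      ((N : ℝ) + 1) ^ (2 - 1 / 40 : ℝ) := by
    rw [← Real.rpow_add hN]; norm_num
  have e7 : 0 ≤ ((N : ℝ) + 1) ^ (2 - 1 / 40 : ℝ) := by positivity
  calc (F.time p : ℝ) ≤ C * ((Z : ℝ) ^ 18 * (l : ℝ) ^ (39 / 20 : ℝ)) := h α F p Z l hs hl
    _ ≤ C * ((C₁ ^ 18 * ((N : ℝ) + 1) ^ (1 / 40 : ℝ)) *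
          (C₂ ^ (39 / 20 : ℝ) * ((N : ℝ) + 1) ^ (39 / 20 : ℝ))) := by
        apply mul_le_mul_of_nonneg_left _ hC.le
        exact mul_le_mul e4 e5 (by positivity) (by positivity)
    _ = C * (C₁ ^ 18 * C₂ ^ (39 / 20 : ℝ)) *
          (((N : ℝ) + 1) ^ (1 / 40 : ℝ) * ((N : ℝ) + 1) ^ (39 / 20 : ℝ)) := by ring
    _ = C * (C₁ ^ 18 * C₂ ^ (39 / 20 : ℝ)) * ((N : ℝ) + 1) ^ (2 - 1 / 40 : ℝ) := by rw [e6]
    _ ≤ _ := by nlinarith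

/-! ### Polynomial bounds for the registers -/

theorem Small.loops_le (h : F.Small p Z) {X : ℕ} (hZX : Z ≤ X) (hX : 2 ^ F.e p ≤ X) :
    (F.q p).loops ≤ 2 ^ 21 * X ^ 4 := by
  have h1 : (F.q p).loops ≤ F.r4 p + 2 := by unfold StF.r4; omega
  have e1 : 2 ^ (F.e p / 5) ≤ X :=
    (Nat.pow_le_pow_right (by norm_num) (by omega)).trans hX
  calc (F.q p).loops ≤ 2 ^ 21 * Z ^ 3 * 2 ^ (F.e p / 5) := h1.trans h.r4
    _ ≤ 2 ^ 21 * X ^ 3 * X :=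
        Nat.mul_le_mul (Nat.mul_le_mul_left _ (Nat.pow_le_pow_left hZX 3)) e1
    _ = _ := by ring

/-- The parameter registers are polynomially bounded. -/
theorem Small.val_le (h : F.Small p Z) {X : ℕ} (hZX : Z ≤ X) (hX : 2 ^ F.e p ≤ X)
    (hmu : F.mu p ≤ X) (hl2 : F.l2 p ≤ X) (hc0 : F.c0 p ≤ X) (i : ℕ) :
    F.val i p ≤ 2 ^ 30 * X ^ 8 := by
  have h1 : 1 ≤ X := h.one.trans hZX
  have hlo := h.loops_le hZX hX
  obtain ⟨l1, l2, l3, l4, l5, l6, l7, l8⟩ := SP.loops_le h.ok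
  have hb1 : 0 < (F.q p).b := Nat.pow_pos (by norm_num)
  have hv : (F.q p).v ≤ (F.q p).b * (F.q p).v := Nat.le_mul_of_pos_left _ hb1
  have p1 : X ^ 4 ≤ X ^ 8 := Nat.pow_le_pow_right h1 (by norm_num)
  have p2 : X ≤ X ^ 8 := Nat.le_self_pow (by norm_num) X
  have p3 : X ^ 2 ≤ X ^ 8 := Nat.pow_le_pow_right h1 (by norm_num)
  have p4 : Z ^ 6 ≤ X ^ 6 := Nat.pow_le_pow_left hZX 6
  have hg : (F.q p).g ≤ X := by
    refine (Nat.pow_le_pow_right (by norm_num) ?_).trans hX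
    show 8 * F.e p / 10 - _ ≤ F.e p
    omega
  have hr4 : F.r4 p ≤ 2 ^ 21 * X ^ 4 := by
    have e1 : 2 ^ (F.e p / 5) ≤ X :=
      (Nat.pow_le_pow_right (by norm_num) (by omega)).trans hX
    calc F.r4 p ≤ F.r4 p + 2 := by omega
      _ ≤ 2 ^ 21 * Z ^ 3 * 2 ^ (F.e p / 5) := h.r4
      _ ≤ 2 ^ 21 * X ^ 3 * X :=
          Nat.mul_le_mul (Nat.mul_le_mul_left _ (Nat.pow_le_pow_left hZX 3)) e1
      _ = _ := by ring
  have hlc : 2 ^ (F.q p).lc ≤ X := by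
    refine (Nat.pow_le_pow_right (by norm_num) ?_).trans hX
    show 9 * F.e p / 10 ≤ F.e p
    omega
  have hr3 : F.r3 p ≤ 2 ^ 22 * X ^ 8 := by
    have a1 : F.Kr p * (2 * F.l2 p) ≤ 2 * X ^ 2 := by
      calc F.Kr p * (2 * F.l2 p) ≤ X * (2 * X) :=
            Nat.mul_le_mul (h.Kr.trans hZX) (Nat.mul_le_mul_left _ hl2)
        _ = _ := by ring
    have a2 : 2 ^ (F.e p + 3) ≤ 8 * X := by
      rw [pow_add]; omega
    have a3 : (2 ^ (F.q p).lc + 1) * (2 ^ (F.q p).lc + 2) ≤ 6 * X ^ 2 := by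
      calc (2 ^ (F.q p).lc + 1) * (2 ^ (F.q p).lc + 2) ≤ (2 * X) * (3 * X) :=
            Nat.mul_le_mul (by omega) (by omega)
        _ = _ := by ring
    unfold StF.r3
    omega
  have hr5 : F.r5 p ≤ 2 ^ 30 * X ^ 8 := by
    have a1 : 2 ^ (2 * F.e p - (F.q p).ld) ≤ X ^ 2 := by
      calc 2 ^ (2 * F.e p - (F.q p).ld) ≤ 2 ^ (F.e p * 2) :=
            Nat.pow_le_pow_right (by norm_num) (by omega)
        _ = (2 ^ F.e p) ^ 2 := by rw [pow_mul]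
        _ ≤ X ^ 2 := Nat.pow_le_pow_left hX 2
    calc F.r5 p ≤ 2 ^ 30 * Z ^ 6 * 2 ^ (2 * F.e p - (F.q p).ld) := h.r5
      _ ≤ 2 ^ 30 * X ^ 6 * X ^ 2 := Nat.mul_le_mul (Nat.mul_le_mul_left _ p4) a1
      _ = _ := by ring
  have hKr := h.Kr
  have hnS := h.nS
  have hnE := h.nE
  have st : ∀ {j f g B : ℕ}, f ≤ B → g ≤ B → (if i = j then f else g) ≤ B := by
    intro j f g B hf hg
    by_cases hij : i = j
    · rw [if_pos hij]; exact hf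
    · rw [if_neg hij]; exact hg
  have hloX : (F.q p).loops ≤ 2 ^ 30 * X ^ 8 := by omega
  exact st (by omega) (st (by omega) (st (by omega) (st (by omega) (st (by omega)
    (st (by omega) (st (by omega) (st (by omega) (st (by omega) (st (by omega) (st (by omega)
    (st (by omega) (st (by omega) (st (by omega) (st (by omega) (st (by omega) hr5)))))))))))))))

theorem Small.nSd_le (h : F.Small p Z) {X : ℕ} (hZX : Z ≤ X) (hX : 2 ^ F.e p ≤ X) :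
    F.nSd p ≤ 2 ^ 22 * X ^ 4 := by
  have hlo := h.loops_le hZX hX
  obtain ⟨l1, l2, l3, l4, l5, l6, l7, l8⟩ := SP.loops_le h.ok
  unfold StF.nSd
  omega

end StF

end Vale.Agent.P315.H36
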