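import Vale.Agent.P315.H36.Split

/-! The base algorithm with constant factor and small additive error: deterministic part.

`X`-windows `i < K b` of length `w = g v`, grid points `j` of `Y` (position `py + j g`), blocks of
`b` windows.  Tables `A` (windows), `B` (blocks), `F` (prefixes); `piv` the pivots, `smp` the
sampled offsets, `Near i` the nearest grid points of window `i`. -/

set_option autoImplicit false

namespace Vale.Agent.P315.H36

open Vale.Agent.P315

structure Pm where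
  X : ℕ → ℕ
  Y : ℕ → ℕ
  px : ℕ
  lx : ℕ
  py : ℕ
  ly : ℕ
  g : ℕ
  v : ℕ
  b : ℕ
  K : ℕ
  M : ℕ
  d : ℕ

namespace Pm
variable (P : Pm)

/-- window length -/
def w : ℕ := P.g * P.v
/-- number of windows -/
def k : ℕ := P.K * P.b
/-- distance of `x`-window `i` and the `y`-window at grid point `j` -/
def dxy (i j : ℕ) : ℕ := dist P.X P.Y (P.px + i * P.w) P.w (P.py + j * P.g) P.w
/-- distance of the `y`-windows at grid points `j`, `j'` -/
def dyy (j j' : ℕ) : ℕ := dist P.Y P.Y (P.py + j * P.g) P.w (P.py + j' * P.g) P.w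
/-- distance of the `x`-block with first window `i` and the `y`-block at grid point `j` -/
def dbl (i j : ℕ) : ℕ := dist P.X P.Y (P.px + i * P.w) (P.b * P.w) (P.py + j * P.g) (P.b * P.w)
/-- prefix distance -/
def dpre (i j : ℕ) : ℕ := dist P.X P.Y P.px (i * P.w) P.py (j * P.g)
/-- total distance -/
def D : ℕ := dist P.X P.Y P.px P.lx P.py P.ly

structure Ok : Prop where
  g0 : 0 < P.g
  b0 : 0 < P.b
  k1 : P.k * P.w ≤ P.lx
  k2 : P.lx ≤ P.k * P.w + P.b * P.w
  M0 : P.ly < P.M * P.g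

/-- `S i` is a set of nearest grid points of window `i`. -/
structure IsNear (S : ℕ → Finset ℕ) : Prop where
  card : ∀ i, i < P.k → min P.d P.M ≤ (S i).card
  sub : ∀ i, i < P.k → ∀ j ∈ S i, j < P.M
  near : ∀ i, i < P.k → ∀ j ∈ S i, ∀ j' < P.M, j' ∉ S i → P.dxy i j ≤ P.dxy i j'

/-- What the tables have to satisfy for the upper bound. -/
structure Tab (A B F : ℕ → ℕ → ℕ) (out : ℕ) (piv smp : Finset ℕ) (S : ℕ → Finset ℕ) : Prop where
  A1 : ∀ i < P.k, ∀ j < P.M, A i j ≤ 2 * P.w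
  A2 : ∀ i < P.k, ∀ j < P.M, ∀ p ∈ piv, A i j ≤ P.dxy i p + P.dyy p j
  B1 : ∀ a < P.K, ∀ r ∈ smp, ∀ j ∈ S (a * P.b + r), B a (j - r * P.v) ≤
    P.dbl (a * P.b) (j - r * P.v)
  F0 : F 0 0 = 0
  Fm : ∀ i ≤ P.k, ∀ j ≤ P.M + P.b * P.v, ∀ j' ≤ P.M + P.b * P.v,
    F i j ≤ F i j' + (P.g * (j - j') + P.g * (j' - j))
  FA : ∀ i < P.k, ∀ j < P.M, F (i + 1) (j + P.v) ≤ F i j + A i j
  FB : ∀ a < P.K, ∀ j < P.M, F ((a + 1) * P.b) (j + P.b * P.v) ≤ F (a * P.b) j + B a j
  out : ∀ j < P.M, out ≤ F P.k j + (j * P.g - P.ly) + (P.ly - j * P.g) + (P.lx - P.k * P.w)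

end Pm

variable {P : Pm}

/-- An alignment of the windows. -/
structure Al (P : Pm) (f : ℕ → ℕ) : Prop where
  mono : Monotone f
  f0 : f 0 = 0
  fly : ∀ i, f i ≤ P.ly
  sum : (∑ i ∈ Finset.range P.k, dist P.X P.Y (P.px + i * P.w) P.w (P.py + f i)
    (f (i + 1) - f i)) + (P.ly - f P.k) ≤ P.D + P.b * P.w

theorem exists_al (hP : P.Ok) : ∃ f, Al P f := by
  obtain ⟨f, hm, h0, hk, hle, hs⟩ := exists_breaks P.X P.Y P.px P.w P.py P.ly P.k
    (P.lx - P.k * P.w)
  refine ⟨f, hm, h0, hle, ?_⟩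
  have h1 := hP.k1
  have h2 := hP.k2
  have h3 := (le_dist P.X P.Y (P.px + P.k * P.w) (P.lx - P.k * P.w) (P.py + f P.k)
    (P.ly - f P.k)).1
  rw [show P.k * P.w + (P.lx - P.k * P.w) = P.lx by omega] at hs
  unfold Pm.D
  omega

section
variable (P) (f : ℕ → ℕ)
/-- grid point of breakpoint `i` -/
def qq (i : ℕ) : ℕ := f i / P.g
/-- cost of window `i` -/
def cc (i : ℕ) : ℕ := dist P.X P.Y (P.px + i * P.w) P.w (P.py + f i) (f (i + 1) - f i)
/-- distance at the rounded position -/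
def ee (i : ℕ) : ℕ := P.dxy i (qq P f i)
/-- similar grid points -/
def NN (i : ℕ) : Finset ℕ := (Finset.range P.M).filter (fun j => P.dxy i j ≤ ee P f i)
end

variable {f : ℕ → ℕ}

theorem qq_lo (hP : P.Ok) (i : ℕ) : qq P f i * P.g ≤ f i := Nat.div_mul_le_self _ _

theorem qq_hi (hP : P.Ok) (i : ℕ) : f i < qq P f i * P.g + P.g := by
  have := Nat.lt_div_mul_add hP.g0 (a := f i)
  unfold qq; omega

theorem qq_lt (hP : P.Ok) (hf : Al P f) (i : ℕ) : qq P f i < P.M := by
  have h1 := qq_lo hP i (f := f)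
  have h2 := hf.fly i
  have h3 := hP.M0
  by_contra h
  have : P.M * P.g ≤ qq P f i * P.g := Nat.mul_le_mul_right _ (by omega)
  omega

theorem step_len (hf : Al P f) (i : ℕ) : f (i + 1) ≤ f i + P.w + cc P f i ∧
    f i + P.w ≤ f (i + 1) + cc P f i := by
  have h1 := le_dist P.X P.Y (P.px + i * P.w) P.w (P.py + f i) (f (i + 1) - f i)
  have h2 := hf.mono (Nat.le_succ i)
  unfold cc
  simp only [Nat.succ_eq_add_one] at h2
  omega

theorem ee_le (hP : P.Ok) (hf : Al P f) (i : ℕ) : ee P f i ≤ 3 * cc P f i + 2 * P.g := by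
  have h1 := qq_lo hP i (f := f)
  have h2 := qq_hi hP i (f := f)
  have h3 := step_len hf i
  have h4 := hf.mono (Nat.le_succ i)
  simp only [Nat.succ_eq_add_one] at h4
  have h5 := dist_window P.X P.Y (P.px + i * P.w) P.w (q1 := P.py + qq P f i * P.g)
    (q2 := P.py + qq P f i * P.g + P.w) (q1' := P.py + f i) (q2' := P.py + f (i + 1))
    (D := cc P f i + P.g) (by omega) (by omega) (by omega) (by omega) (by omega) (by omega)
  rw [show P.py + qq P f i * P.g + P.w - (P.py + qq P f i * P.g) = P.w by omega,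
    show P.py + f (i + 1) - (P.py + f i) = f (i + 1) - f i by omega] at h5
  have h6 : dist P.X P.Y (P.px + i * P.w) P.w (P.py + f i) (f (i + 1) - f i) = cc P f i := rfl
  have h7 : dist P.X P.Y (P.px + i * P.w) P.w (P.py + qq P f i * P.g) P.w = ee P f i := rfl
  omega

variable {A B F : ℕ → ℕ → ℕ} {out : ℕ} {piv smp : Finset ℕ} {S : ℕ → Finset ℕ}

theorem w_eq : P.w = P.v * P.g := by unfold Pm.w; ring

/-- Moving in a row from a grid point `u` to a grid point `u'`. -/
theorem move_le (hT : P.Tab A B F out piv smp S) {i u u' t : ℕ} (hi : i ≤ P.k)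
    (hu : u ≤ P.M + P.b * P.v) (hu' : u' ≤ P.M + P.b * P.v)
    (h1 : u * P.g ≤ u' * P.g + t) (h2 : u' * P.g ≤ u * P.g + t) :
    F i u ≤ F i u' + t := by
  have h := hT.Fm i hi u hu u' hu'
  have e1 : P.g * (u - u') = u * P.g - u' * P.g := by
    rw [mul_comm, Nat.sub_mul]
  have e2 : P.g * (u' - u) = u' * P.g - u * P.g := by
    rw [mul_comm, Nat.sub_mul]
  rcases le_total u u' with hh | hh
  · have : u * P.g ≤ u' * P.g := Nat.mul_le_mul_right _ hh
    omega
  · have : u' * P.g ≤ u * P.g := Nat.mul_le_mul_right _ hh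
    omega

theorem window_step (hP : P.Ok) (hf : Al P f) (hT : P.Tab A B F out piv smp S) {i : ℕ}
    (hi : i < P.k) : F (i + 1) (qq P f (i + 1)) ≤ F i (qq P f i) + A i (qq P f i) +
      (cc P f i + P.g) := by
  have h1 := qq_lo hP i (f := f)
  have h2 := qq_hi hP i (f := f)
  have h3 := step_len hf i
  have h4 := qq_lo hP (i + 1) (f := f)
  have h5 := qq_hi hP (i + 1) (f := f)
  have h6 := qq_lt hP hf i
  have h7 := qq_lt hP hf (i + 1)
  have h8 := hT.FA i hi _ h6
  have e : (qq P f i + P.v) * P.g = qq P f i * P.g + P.w := by rw [w_eq]; ring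
  have hb := hP.b0
  have hbv : P.v ≤ P.b * P.v := Nat.le_mul_of_pos_left _ hb
  have h9 := move_le hT (i := i + 1) (u := qq P f (i + 1)) (u' := qq P f i + P.v)
    (t := cc P f i + P.g) (by omega) (by omega) (by omega) (by omega) (by omega)
  omega

theorem good_step (hP : P.Ok) (hf : Al P f) (hT : P.Tab A B F out piv smp S) {i : ℕ}
    (hi : i < P.k) (hh : ∃ p ∈ piv, p ∈ NN P f i) : F (i + 1) (qq P f (i + 1)) ≤
      F i (qq P f i) + (10 * cc P f i + 7 * P.g) := by
  obtain ⟨p, hp, hp'⟩ := hh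
  have h1 := window_step hP hf hT hi
  have h2 := hT.A2 i hi _ (qq_lt hP hf i) p hp
  have h3 : P.dxy i p ≤ ee P f i := (Finset.mem_filter.mp hp').2
  have h4 : P.dyy p (qq P f i) ≤ P.dxy i p + P.dxy i (qq P f i) := by
    unfold Pm.dyy Pm.dxy
    refine (dist_tri P.Y P.X P.Y _ _ (P.px + i * P.w) P.w _ _).trans ?_
    rw [dist_comm' P.Y P.X]
  have h5 : P.dxy i (qq P f i) = ee P f i := rfl
  have h6 := ee_le hP hf i
  omega

theorem bad_step (hP : P.Ok) (hf : Al P f) (hT : P.Tab A B F out piv smp S) {i : ℕ}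
    (hi : i < P.k) : F (i + 1) (qq P f (i + 1)) ≤
      F i (qq P f i) + (cc P f i + P.g) + 2 * P.w := by
  have h1 := window_step hP hf hT hi
  have h2 := hT.A1 i hi _ (qq_lt hP hf i)
  omega

/-- Sum of the window costs in an interval. -/
def CC (P : Pm) (f : ℕ → ℕ) (a n : ℕ) : ℕ := ∑ i ∈ Finset.range n, cc P f (a + i)

theorem len_range (hf : Al P f) (a n : ℕ) : f (a + n) ≤ f a + n * P.w + CC P f a n ∧
    f a + n * P.w ≤ f (a + n) + CC P f a n := by
  induction n with
  | zero => simp [CC]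
  | succ n ih =>
    have h1 := step_len hf (a + n)
    have e : CC P f a (n + 1) = CC P f a n + cc P f (a + n) := by
      unfold CC; rw [Finset.sum_range_succ]
    have e2 : (n + 1) * P.w = n * P.w + P.w := by ring
    rw [← Nat.add_assoc, e, e2]
    omega

theorem CC_mono (a : ℕ) {n m : ℕ} (h : n ≤ m) : CC P f a n ≤ CC P f a m :=
  Finset.sum_le_sum_of_subset (Finset.range_mono h)

theorem dist_range (hf : Al P f) (a n : ℕ) :
    dist P.X P.Y (P.px + a * P.w) (n * P.w) (P.py + f a) (f (a + n) - f a) ≤ CC P f a n :=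
  dist_sum_le P.X P.Y hf.mono P.px P.w P.py a n

theorem sparse_near (hP : P.Ok) (hf : Al P f) (hS : P.IsNear S) {i : ℕ} (hi : i < P.k)
    (hs : (NN P f i).card < P.d) : qq P f i ∈ S i := by
  by_contra h
  have hq := qq_lt hP hf i
  have h1 : insert (qq P f i) (S i) ⊆ NN P f i := by
    intro j hj
    rcases Finset.mem_insert.mp hj with rfl | hj
    · exact Finset.mem_filter.mpr ⟨Finset.mem_range.mpr hq, le_rfl⟩
    · exact Finset.mem_filter.mpr ⟨Finset.mem_range.mpr (hS.sub i hi j hj),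
        hS.near i hi j hj _ hq h⟩
  have h2 := Finset.card_le_card h1
  rw [Finset.card_insert_of_notMem h] at h2
  have h3 := hS.card i hi
  have h4 : (insert (qq P f i) (S i)).card ≤ P.M := by
    have : insert (qq P f i) (S i) ⊆ Finset.range P.M := by
      intro j hj
      rcases Finset.mem_insert.mp hj with rfl | hj
      · exact Finset.mem_range.mpr hq
      · exact Finset.mem_range.mpr (hS.sub i hi j hj)
    simpa using Finset.card_le_card this
  rw [Finset.card_insert_of_notMem h] at h4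
  omega

theorem block_step (hP : P.Ok) (hf : Al P f) (hT : P.Tab A B F out piv smp S)
    (hS : P.IsNear S) {a : ℕ} (ha : a < P.K) {r : ℕ} (hr : r ∈ smp) (hrb : r < P.b)
    (hs : (NN P f (a * P.b + r)).card < P.d) :
    F ((a + 1) * P.b) (qq P f ((a + 1) * P.b)) ≤ F (a * P.b) (qq P f (a * P.b)) +
      (10 * CC P f (a * P.b) P.b + 8 * P.g) := by
  have hik : a * P.b + r < P.k := by
    have : (a + 1) * P.b ≤ P.K * P.b := Nat.mul_le_mul_right _ ha
    have e : (a + 1) * P.b = a * P.b + P.b := by ring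
    unfold Pm.k; omega
  have hk1 : (a + 1) * P.b ≤ P.k := Nat.mul_le_mul_right _ ha
  have e0 : (a + 1) * P.b = a * P.b + P.b := by ring
  set i0 := a * P.b with hi0
  set j := qq P f (i0 + r) with hj
  have hjS := sparse_near hP hf hS hik hs
  have hB := hT.B1 a ha r hr j hjS
  rw [← hi0] at hB
  have hjM := qq_lt hP hf (i0 + r)
  set Q := j - r * P.v with hQ
  have hQM : Q < P.M := by omega
  -- positions
  have a1 := qq_lo hP i0 (f := f)
  have a2 := qq_hi hP i0 (f := f)
  have a3 := qq_lo hP (i0 + r) (f := f)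
  have a4 := qq_hi hP (i0 + r) (f := f)
  have a5 := qq_lo hP (i0 + P.b) (f := f)
  have a6 := qq_hi hP (i0 + P.b) (f := f)
  have b1 := len_range hf i0 r
  have b2 := len_range hf i0 P.b
  have b3 : CC P f i0 r ≤ CC P f i0 P.b := CC_mono i0 hrb.le
  set C := CC P f i0 P.b with hC
  have e1 : r * P.v * P.g = r * P.w := by rw [w_eq]; ring
  have e2 : Q * P.g = j * P.g - r * P.w := by rw [hQ, Nat.sub_mul, e1]
  have e3 : P.b * P.v * P.g = P.b * P.w := by rw [w_eq]; ring
  have e4 : (Q + P.b * P.v) * P.g = Q * P.g + P.b * P.w := by rw [add_mul, e3]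
  rw [← hj] at a3 a4
  -- the block distance
  have c1 := dist_range hf i0 P.b
  have c2 := dist_window P.X P.Y (P.px + i0 * P.w) (P.b * P.w) (q1 := P.py + Q * P.g)
    (q2 := P.py + Q * P.g + P.b * P.w) (q1' := P.py + f i0) (q2' := P.py + f (i0 + P.b))
    (D := 2 * C + 2 * P.g) (by omega) (by have := hf.mono (Nat.le_add_right i0 P.b); omega)
    (by omega) (by omega) (by omega) (by omega)
  rw [show P.py + Q * P.g + P.b * P.w - (P.py + Q * P.g) = P.b * P.w by omega,
    show P.py + f (i0 + P.b) - (P.py + f i0) = f (i0 + P.b) - f i0 by omega] at c2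
  have c3 : P.dbl i0 Q = dist P.X P.Y (P.px + i0 * P.w) (P.b * P.w) (P.py + Q * P.g)
    (P.b * P.w) := rfl
  have c4 := hT.FB a ha Q hQM
  rw [← hi0, e0] at c4
  -- the two moves
  have hm1 : qq P f i0 ≤ P.M + P.b * P.v := by have := qq_lt hP hf i0; omega
  have hm2 : qq P f (i0 + P.b) ≤ P.M + P.b * P.v := by have := qq_lt hP hf (i0 + P.b); omega
  have m1 := move_le hT (i := i0) (u := Q) (u' := qq P f i0) (t := C + P.g) (by omega)
    (by omega) hm1 (by omega) (by omega)
  have m2 := move_le hT (i := i0 + P.b) (u := qq P f (i0 + P.b)) (u' := Q + P.b * P.v)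
    (t := 2 * C + 3 * P.g) (by omega) hm2 (by omega) (by omega) (by omega)
  rw [e0]
  omega

end Vale.Agent.P315.H36
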