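import Vale.Agent.P315.H36.Real

/-! The number of steps of one run of the base algorithm, for the parameters of `SP`. -/

set_option autoImplicit false

namespace Vale.Agent.P315.H36

namespace SP

variable {q : SP}

theorem wt_le {w : ℕ} (hw : 0 < w) : (w + 1) * (w + 2) + 1 ≤ 8 * w ^ 2 := by nlinarith

/-- Budget of the exact distances of one run: windows against hubs, hubs against grid points,
sampled windows against grid points, blocks on served diagonals. -/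
def tot (q : SP) : ℕ :=
  (q.s * (q.K * q.b) + q.s * q.M + q.K * q.R * q.M) * ((q.w + 1) * (q.w + 2) + 1) +
    q.K * q.R * q.d * ((q.b * q.w + 1) * (q.b * q.w + 2) + 1)

theorem tot_le (h : q.Ok) : q.tot ≤ 2 ^ (30 + 3 * q.lam + q.kap + (2 * q.e - q.ld)) := by
  have h1 := lw_ge h
  have h2 := lc_le h
  have h3 := lw_le_lc q
  have h4 := lw_le h
  have h5 : q.ld + q.lw ≤ q.lc := by unfold Ok lc lw ld at *; omega
  have h6 : q.lc + 2 * q.ld ≤ q.e := by unfold lc ld; omega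
  have h7 := ld_le h
  have hlM : q.lM + q.lw = q.e + q.lam + 7 := by unfold lM lg; omega
  have hls : q.ls + q.ld = q.lR + q.lM := by unfold ls; omega
  have hw : 0 < q.w := Nat.pow_pos (by norm_num)
  have hbw : 0 < q.b * q.w := Nat.mul_pos (Nat.pow_pos (by norm_num)) hw
  obtain ⟨E, hE⟩ : ∃ E, E = 28 + 3 * q.lam + q.kap + (2 * q.e - q.ld) := ⟨_, rfl⟩
  have hR : q.lR = 11 + q.lam + q.kap := rfl
  have a1 : q.s * (q.K * q.b) * (8 * q.w ^ 2) ≤ 2 ^ E := by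
    have : q.s * (q.K * q.b) * (8 * q.w ^ 2) =
        2 ^ (q.ls + (q.e + 1 - q.lc + (q.lc - q.lw)) + (3 + q.lw * 2)) := by
      unfold s K b w
      simp only [pow_add, pow_mul]; norm_num
    rw [this]
    exact Nat.pow_le_pow_right (by norm_num) (by omega)
  have a2 : q.s * q.M * (8 * q.w ^ 2) ≤ 2 ^ E := by
    have : q.s * q.M * (8 * q.w ^ 2) = 2 ^ (q.ls + q.lM + (3 + q.lw * 2)) := by
      unfold s M w
      simp only [pow_add, pow_mul]; norm_num
    rw [this]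
    exact Nat.pow_le_pow_right (by norm_num) (by omega)
  have a3 : q.K * q.R * q.M * (8 * q.w ^ 2) ≤ 2 ^ E := by
    have : q.K * q.R * q.M * (8 * q.w ^ 2) =
        2 ^ (q.e + 1 - q.lc + q.lR + q.lM + (3 + q.lw * 2)) := by
      unfold K R M w
      simp only [pow_add, pow_mul]; norm_num
    rw [this]
    exact Nat.pow_le_pow_right (by norm_num) (by omega)
  have a4 : q.K * q.R * q.d * (8 * (q.b * q.w) ^ 2) ≤ 2 ^ E := by
    have : q.K * q.R * q.d * (8 * (q.b * q.w) ^ 2) =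
        2 ^ (q.e + 1 - q.lc + q.lR + q.ld + (3 + q.lc * 2)) := by
      rw [bw]
      unfold K R d
      simp only [pow_add, pow_mul]; norm_num
    rw [this]
    exact Nat.pow_le_pow_right (by norm_num) (by omega)
  unfold tot
  calc (q.s * (q.K * q.b) + q.s * q.M + q.K * q.R * q.M) * ((q.w + 1) * (q.w + 2) + 1) +
        q.K * q.R * q.d * ((q.b * q.w + 1) * (q.b * q.w + 2) + 1)
      ≤ (q.s * (q.K * q.b) + q.s * q.M + q.K * q.R * q.M) * (8 * q.w ^ 2) +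
        q.K * q.R * q.d * (8 * (q.b * q.w) ^ 2) :=
        Nat.add_le_add (Nat.mul_le_mul_left _ (wt_le hw)) (Nat.mul_le_mul_left _ (wt_le hbw))
    _ ≤ 4 * 2 ^ E := by
        rw [Nat.add_mul, Nat.add_mul]
        omega
    _ = 2 ^ (30 + 3 * q.lam + q.kap + (2 * q.e - q.ld)) := by
        rw [hE, show 30 + 3 * q.lam + q.kap + (2 * q.e - q.ld) =
          2 + (28 + 3 * q.lam + q.kap + (2 * q.e - q.ld)) by ring, pow_add 2 2]
        norm_num

/-- In real powers of the length: `2 ^ (2 e - ld) ≤ 2 * ℓ ^ (39/20)`. -/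
theorem pow_le_rpow {l : ℕ} (hl : 2 ^ q.e ≤ l) :
    ((2 ^ (2 * q.e - q.ld) : ℕ) : ℝ) ≤ 2 * (l : ℝ) ^ (39 / 20 : ℝ) := by
  have h1 : ((2 ^ q.e : ℕ) : ℝ) ≤ l := by exact_mod_cast hl
  have h2 : (((2 : ℕ) ^ q.e : ℕ) : ℝ) ^ (39 / 20 : ℝ) ≤ (l : ℝ) ^ (39 / 20 : ℝ) :=
    Real.rpow_le_rpow (by positivity) h1 (by norm_num)
  have h3 : ((2 ^ (2 * q.e - q.ld) : ℕ) : ℝ) ≤ 2 * (((2 : ℕ) ^ q.e : ℕ) : ℝ) ^ (39 / 20 : ℝ) := by
    have e1 : (((2 : ℕ) ^ q.e : ℕ) : ℝ) ^ (39 / 20 : ℝ) = (2 : ℝ) ^ ((q.e : ℝ) * (39 / 20)) := by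
      push_cast
      rw [← Real.rpow_natCast, ← Real.rpow_mul (by norm_num)]
    have e2 : ((2 ^ (2 * q.e - q.ld) : ℕ) : ℝ) = (2 : ℝ) ^ ((2 * q.e - q.ld : ℕ) : ℝ) := by
      push_cast
      rw [Real.rpow_natCast]
    have e3 : (2 : ℝ) * (2 : ℝ) ^ ((q.e : ℝ) * (39 / 20)) = (2 : ℝ) ^ (1 + (q.e : ℝ) * (39 / 20)) := by
      rw [Real.rpow_add (by norm_num), Real.rpow_one]
    rw [e1, e2, e3]
    apply Real.rpow_le_rpow_of_exponent_le (by norm_num)
    have h4 : 20 * (2 * q.e - q.ld) ≤ 20 + 39 * q.e := by unfold ld; omega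
    have h5 : (20 : ℝ) * ((2 * q.e - q.ld : ℕ) : ℝ) ≤ 20 + 39 * (q.e : ℝ) := by exact_mod_cast h4
    linarith
  linarith

/-- Bound of all loop lengths. -/
def loops (q : SP) : ℕ := 2 ^ (q.e / 5 + 20 + 2 * q.lam + q.kap)

theorem loops_le (h : q.Ok) : q.M ≤ q.loops ∧ q.K * q.b ≤ q.loops ∧ q.K ≤ q.loops ∧
    q.b ≤ q.loops ∧ q.s ≤ q.loops ∧ q.R ≤ q.loops ∧ q.d ≤ q.loops ∧
    q.M + q.b * q.v + 1 ≤ q.loops := by
  have h1 := lw_ge h
  have h2 := lc_le h
  have h3 := lw_le_lc q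
  have h4 := lw_le h
  have h7 := ld_le h
  have hlM : q.lM + q.lw = q.e + q.lam + 7 := by unfold lM lg; omega
  have hls : q.ls + q.ld = q.lR + q.lM := by unfold ls; omega
  have hR : q.lR = 11 + q.lam + q.kap := rfl
  have hw : q.e ≤ q.lw + q.e / 5 + 1 := by unfold lw; omega
  have hM : q.lM ≤ q.e / 5 + q.lam + 8 := by omega
  have hb : q.lc - q.lw ≤ q.e / 5 + 1 := by omega
  obtain ⟨E, hE⟩ : ∃ E, E = q.e / 5 + 20 + 2 * q.lam + q.kap := ⟨_, rfl⟩
  have mono : ∀ {a : ℕ}, a ≤ E → 2 ^ a ≤ 2 ^ E := fun ha => Nat.pow_le_pow_right (by norm_num) ha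
  unfold loops
  rw [← hE]
  refine ⟨mono (by omega), ?_, mono (by omega), mono (by omega), mono ?_, mono (by omega),
    mono ?_, ?_⟩
  · unfold K b
    rw [← pow_add]; exact mono (by omega)
  · omega
  · omega
  · have e1 : q.M ≤ 2 ^ (E - 2) := Nat.pow_le_pow_right (by norm_num) (by omega)
    have e2 : q.b * q.v ≤ 2 ^ (E - 2) := by
      unfold b v
      rw [← pow_add]
      exact Nat.pow_le_pow_right (by norm_num) (by omega)
    have e3 : 1 ≤ 2 ^ (E - 2) := Nat.one_le_two_pow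
    have e4 : (2 : ℕ) ^ E = 4 * 2 ^ (E - 2) := by
      rw [show (4 : ℕ) = 2 ^ 2 by norm_num, ← pow_add]; congr 1; omega
    omega

/-- The sizes of the numbers: all positions of a run are below `2 ^ (e + 2)`. -/
theorem size_le (h : q.Ok) : (q.M + q.b * q.v) * q.g + q.K * q.b * q.w ≤ 2 ^ (q.e + 3) := by
  have h1 := Mg h
  have h2 := Kbw h
  have h3 := bw q
  have h4 := gv h
  have hlc := lc_le h
  have e1 : q.b * q.v * q.g = 2 ^ q.lc := by
    rw [mul_assoc, mul_comm q.v, h4, h3]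
  have e2 : (2 : ℕ) ^ q.lc ≤ 2 ^ (q.e + 1) := Nat.pow_le_pow_right (by norm_num) (by omega)
  have e3 : (2 : ℕ) ^ (q.e + 3) = 4 * 2 ^ (q.e + 1) := by
    rw [show q.e + 3 = 2 + (q.e + 1) by ring, pow_add]; norm_num
  have e4 : q.K * q.b * q.w = q.K * (q.b * q.w) := by ring
  rw [add_mul, e1, h1, e4, h2, e3]
  omega

end SP

end Vale.Agent.P315.H36
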