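import Vale.Agent.P315.H36.Real
import Vale.Agent.P315.H142.Val
import Vale.Agent.P315.H731.Tape

/-! The base algorithm: final statements for `H142.startVal`: soundness, goodness for all members
of a family of instances with probability at least `63/64`, over uniform seeds and over uniform
tapes. -/

set_option autoImplicit false

namespace Vale.Agent.P315.H36

open Vale.Agent.P315 Vale.Agent.P315.H142

theorem Aof_congr (P : Pm) {hub hub' : ℕ → ℕ} {s : ℕ} (h : ∀ t < s, hub t = hub' t) (i j : ℕ) :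
    Aof P hub i j s = Aof P hub' i j s := by
  induction s with
  | zero => rfl
  | succ s ih =>
    simp only [Aof]
    rw [ih (fun t ht => h t (by omega)), h s (by omega)]

theorem Bof_congr (P : Pm) {off off' : ℕ → ℕ} {R : ℕ} (h : ∀ t < R, off t = off' t) :
    Bof P R off = Bof P R off' := by
  classical
  funext a Q
  have hs : served P R off a Q ↔ served P R off' a Q := by
    constructor
    · rintro ⟨t, ht, j, hj, h1, h2⟩
      exact ⟨t, ht, j, hj, by rw [← h t ht]; exact h1, by rw [← h t ht]; exact h2⟩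
    · rintro ⟨t, ht, j, hj, h1, h2⟩
      exact ⟨t, ht, j, hj, by rw [h t ht]; exact h1, by rw [h t ht]; exact h2⟩
  unfold Bof
  simp only [hs]

theorem startVal_congr (P : Pm) {hub hub' off off' : ℕ → ℕ} {s R : ℕ}
    (h : ∀ t < s, hub t = hub' t) (h' : ∀ t < R, off t = off' t) :
    startVal P s hub R off = startVal P s hub' R off' := by
  unfold startVal
  rw [Bof_congr P h']
  congr 1
  funext i j
  exact Aof_congr P h i j

/-- The tables of `startVal` for one run. -/
theorem good_of (P : Pm) {s R : ℕ} {hub off : ℕ → ℕ} {piv smp : Finset ℕ}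
    (hpiv : ∀ p ∈ piv, ∃ t, t < s ∧ hub t = p) (hsmp : ∀ r ∈ smp, ∃ t, t < R ∧ off t = r)
    (hb : ∀ t < R, off t < P.b) :
    Good P (fun i j => Aof P hub i j s) (Bof P R off) piv smp (nearS P) := by
  refine ⟨fun i _ j _ => le_Aof hub i j s, fun i _ j _ => Aof_le_two hub i j s, ?_,
    fun a _ j _ => le_Bof R off a j, ?_, ?_⟩
  · intro i _ j _ p hp
    obtain ⟨t, ht, rfl⟩ := hpiv p hp
    exact Aof_le hub i j ht
  · intro a _ r hr j hj
    obtain ⟨t, ht, rfl⟩ := hsmp r hr
    have hj' := Finset.mem_filter.mp hj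
    have hs : served P R off a (j - off t * P.v) :=
      ⟨t, ht, j, Finset.mem_range.mp hj'.1, hj'.2, rfl⟩
    unfold Bof
    rw [if_pos hs]
    exact min_le_right _ _
  · intro a ha r hr
    obtain ⟨t, ht, rfl⟩ := hsmp r hr
    have hlt := hb t ht
    have hik : a * P.b + off t < P.k := by
      have h1 : (a + 1) * P.b ≤ P.K * P.b := Nat.mul_le_mul_right _ ha
      have e : (a + 1) * P.b = a * P.b + P.b := by ring
      unfold Pm.k; omega
    exact ⟨isNear.card _ hik, isNear.sub _ hik, isNear.near _ hik⟩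

/-- The value for the ends `lx`, `ly` from the tables of the run. -/
theorem startVal_ends (P : Pm) (s : ℕ) (hub : ℕ → ℕ) (R : ℕ) (off : ℕ → ℕ) (lx ly : ℕ) :
    startVal (P.ends lx ly) s hub R off =
      val P (fun i j => Aof P hub i j s) (Bof P R off) lx ly := by
  have h1 : ∀ i j, Aof (P.ends lx ly) hub i j s = Aof P hub i j s := by
    intro i j
    induction s with
    | zero => rfl
    | succ s ih => simp only [Aof]; rw [ih]; rfl
  have h2 : (fun i j => Aof (P.ends lx ly) hub i j s) = (fun i j => Aof P hub i j s) := by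
    funext i j; exact h1 i j
  show outF (P.ends lx ly) (fun i j => Aof (P.ends lx ly) hub i j s)
    (Bof (P.ends lx ly) R off) = _
  rw [h2]
  rfl

namespace SP
variable {q : SP} {X Y : ℕ → ℕ}

theorem ends_ok' (h : q.Ok) (px py : ℕ) {lx ly : ℕ} (hly : ly < 2 ^ (q.e + 1)) :
    ((q.pm X Y px py).ends lx ly).Ok := by
  refine ends_ok (P := q.pm X Y px py) (Nat.pow_pos (by norm_num)) (Nat.pow_pos (by norm_num))
    (Nat.pow_pos (by norm_num)) ?_
  show ly < q.M * q.g
  rw [Mg h]; exact hly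

/-- **Soundness**: for all hubs and offsets. -/
theorem start_ge (h : q.Ok) (px py : ℕ) {lx ly : ℕ} (hly : ly < 2 ^ (q.e + 1)) (s : ℕ)
    (hub : ℕ → ℕ) (R : ℕ) (off : ℕ → ℕ) :
    dist X Y px lx py ly ≤ startVal ((q.pm X Y px py).ends lx ly) s hub R off :=
  startVal_ge (ends_ok' h px py hly) s hub R off

open Classical in
/-- **Uniform seeds**: good for all members of the family with probability at least `63/64`. -/
theorem start_seeds (h : q.Ok) (T : Finset (ℕ × ℕ × ℕ × ℕ)) (hT : T.card ≤ 2 ^ q.kap)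
    (hT' : ∀ t ∈ T, t.2.1 < 2 ^ (q.e + 1) ∧ t.2.2.2 < 2 ^ (q.e + 1)) :
    64 * (Finset.univ.filter (fun z : (Fin q.s → Fin q.M) × (Fin q.R → Fin q.b) =>
      ∃ t ∈ T, 10 * dist X Y t.1 t.2.1 t.2.2.1 t.2.2.2 + 2 ^ (q.e - q.lam) <
        startVal ((q.pm X Y t.1 t.2.2.1).ends t.2.1 t.2.2.2) q.s (ext0 z.1) q.R
          (ext0 z.2))).card ≤ q.M ^ q.s * q.b ^ q.R := by
  have hb : 0 < q.b := Nat.pow_pos (by norm_num)
  have h1 := start_main (X := X) (Y := Y) h (A := fun p _ px py i j =>
      Aof (q.pm X Y px py) (ext0 p) i j q.s)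
    (B := fun _ r px py => Bof (q.pm X Y px py) q.R (ext0 r))
    (S := fun _ _ px py => nearS (q.pm X Y px py)) (fun p r px py => ?_) T hT hT'
  · simp only [← startVal_ends] at h1
    exact h1
  · refine good_of (q.pm X Y px py) ?_ ?_ ?_
    · intro x hx
      obtain ⟨t, -, rfl⟩ := Finset.mem_image.mp hx
      exact ⟨t, t.2, ext0_apply p t⟩
    · intro x hx
      obtain ⟨t, -, rfl⟩ := Finset.mem_image.mp hx
      exact ⟨t, t.2, ext0_apply r t⟩
    · intro t ht
      have : ext0 r t = r ⟨t, ht⟩ := ext0_apply r ⟨t, ht⟩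
      rw [this]
      exact (r ⟨t, ht⟩).2

open Classical in
/-- **Uniform tapes**: the hubs are the words `o, …, o + s - 1` modulo `M`, the offsets the next
`R` words modulo `b`. -/
theorem start_tape (h : q.Ok) {N Tn o : ℕ} (hN : 0 < N) (hMN : q.M ∣ N) (hbN : q.b ∣ N)
    (ho : o + q.s + q.R ≤ Tn) (T : Finset (ℕ × ℕ × ℕ × ℕ)) (hT : T.card ≤ 2 ^ q.kap)
    (hT' : ∀ t ∈ T, t.2.1 < 2 ^ (q.e + 1) ∧ t.2.2.2 < 2 ^ (q.e + 1)) :
    64 * (Finset.univ.filter (fun ρ : Fin Tn → Fin N =>
      ∃ t ∈ T, 10 * dist X Y t.1 t.2.1 t.2.2.1 t.2.2.2 + 2 ^ (q.e - q.lam) <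
        startVal ((q.pm X Y t.1 t.2.2.1).ends t.2.1 t.2.2.2) q.s
          (fun i => tape ρ (o + i) % q.M) q.R
          (fun i => tape ρ (o + q.s + i) % q.b))).card ≤ N ^ Tn := by
  have hM0 : 0 < q.M := Nat.pow_pos (by norm_num)
  have hb0 : 0 < q.b := Nat.pow_pos (by norm_num)
  have hs := start_seeds (X := X) (Y := Y) h T hT hT'
  let e : Fin q.s ⊕ Fin q.R → ℕ := Sum.elim (fun _ => q.M) (fun _ => q.b)
  let pos : Fin q.s ⊕ Fin q.R → ℕ := Sum.elim (fun i => o + i) (fun i => o + q.s + i)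
  have he : ∀ i, 0 < e i := by rintro (i | i) <;> assumption
  have hd : ∀ i, e i ∣ N := by rintro (i | i) <;> assumption
  have hpT : ∀ i, pos i < Tn := by
    rintro (i | i)
    · have := i.2; show o + (i : ℕ) < Tn; omega
    · have := i.2; show o + q.s + (i : ℕ) < Tn; omega
  have hinj : Function.Injective pos := by
    rintro (i | i) (j | j) hij
    · have : o + (i : ℕ) = o + (j : ℕ) := hij
      have : i = j := Fin.ext (by omega)
      rw [this]
    · have h1 : o + (i : ℕ) = o + q.s + (j : ℕ) := hij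
      have := i.2; omega
    · have h1 : o + q.s + (i : ℕ) = o + (j : ℕ) := hij
      have := j.2; omega
    · have : o + q.s + (i : ℕ) = o + q.s + (j : ℕ) := hij
      have : i = j := Fin.ext (by omega)
      rw [this]
  let Q : (∀ i, Fin (e i)) → Prop := fun c => ∃ t ∈ T,
    10 * dist X Y t.1 t.2.1 t.2.2.1 t.2.2.2 + 2 ^ (q.e - q.lam) <
      startVal ((q.pm X Y t.1 t.2.2.1).ends t.2.1 t.2.2.2) q.s
        (ext0 (fun i : Fin q.s => (c (Sum.inl i) : Fin q.M))) q.R
        (ext0 (fun i : Fin q.R => (c (Sum.inr i) : Fin q.b)))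
  have h1 := H731.tape_card (N := N) (T := Tn) pos hinj hpT e he hd hN Q
  have h2 : (Finset.univ.filter Q).card = (Finset.univ.filter
      (fun z : (Fin q.s → Fin q.M) × (Fin q.R → Fin q.b) =>
      ∃ t ∈ T, 10 * dist X Y t.1 t.2.1 t.2.2.1 t.2.2.2 + 2 ^ (q.e - q.lam) <
        startVal ((q.pm X Y t.1 t.2.2.1).ends t.2.1 t.2.2.2) q.s (ext0 z.1) q.R
          (ext0 z.2))).card := by
    refine Finset.card_bij (fun c _ => (fun i => (c (Sum.inl i) : Fin q.M),
      fun i => (c (Sum.inr i) : Fin q.b))) ?_ ?_ ?_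
    · intro c hc
      exact Finset.mem_filter.mpr ⟨Finset.mem_univ _, (Finset.mem_filter.mp hc).2⟩
    · intro c _ c' _ hcc
      have h3 := congrArg Prod.fst hcc
      have h4 := congrArg Prod.snd hcc
      funext i
      rcases i with i | i
      · exact congrFun h3 i
      · exact congrFun h4 i
    · intro z hz
      refine ⟨fun i => match i with
        | Sum.inl i => z.1 i
        | Sum.inr i => z.2 i, ?_, rfl⟩
      exact Finset.mem_filter.mpr ⟨Finset.mem_univ _, (Finset.mem_filter.mp hz).2⟩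
  have h3 : (∏ i, e i) = q.M ^ q.s * q.b ^ q.R := by
    rw [Fintype.prod_sum_type]
    simp [e]
  have h4 : (Finset.univ.filter (fun ρ : Fin Tn → Fin N =>
      ∃ t ∈ T, 10 * dist X Y t.1 t.2.1 t.2.2.1 t.2.2.2 + 2 ^ (q.e - q.lam) <
        startVal ((q.pm X Y t.1 t.2.2.1).ends t.2.1 t.2.2.2) q.s
          (fun i => tape ρ (o + i) % q.M) q.R
          (fun i => tape ρ (o + q.s + i) % q.b))) =
      Finset.univ.filter (fun ρ : Fin Tn → Fin N => Q (H731.coinsOf pos e he (tape ρ))) := by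
    apply Finset.filter_congr
    intro ρ _
    have h5 : ∀ P : Pm, startVal P q.s (fun i => tape ρ (o + i) % q.M) q.R
        (fun i => tape ρ (o + q.s + i) % q.b) = startVal P q.s
        (ext0 (fun i : Fin q.s => (H731.coinsOf pos e he (tape ρ) (Sum.inl i) : Fin q.M))) q.R
        (ext0 (fun i : Fin q.R => (H731.coinsOf pos e he (tape ρ) (Sum.inr i) : Fin q.b))) := by
      intro P
      refine startVal_congr P (fun t ht => ?_) (fun t ht => ?_)
      · exact (ext0_apply (fun i : Fin q.s =>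
          (H731.coinsOf pos e he (tape ρ) (Sum.inl i) : Fin q.M)) ⟨t, ht⟩).symm
      · exact (ext0_apply (fun i : Fin q.R =>
          (H731.coinsOf pos e he (tape ρ) (Sum.inr i) : Fin q.b)) ⟨t, ht⟩).symm
    simp only [h5]
    rfl
  rw [h4]
  rw [h3, h2] at h1
  obtain ⟨a, ha⟩ : ∃ a, a = q.M ^ q.s * q.b ^ q.R := ⟨_, rfl⟩
  have ha0 : 0 < a := by rw [ha]; positivity
  rw [← ha] at h1 hs
  refine Nat.le_of_mul_le_mul_right ?_ ha0
  calc _ = 64 * ((Finset.univ.filter (fun ρ : Fin Tn → Fin N =>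
        Q (H731.coinsOf pos e he (tape ρ)))).card * a) := by ring
    _ = _ := by rw [h1]
    _ ≤ N ^ Tn * a := by
        have := Nat.mul_le_mul_right (N ^ Tn) hs
        rw [Nat.mul_comm (N ^ Tn) a, ← mul_assoc]
        exact this

end SP

end Vale.Agent.P315.H36
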