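import Vale.Agent.P315.H36.Use

/-! The base algorithm: explicit parameters (all powers of two): few, long windows, so that all
loops are short.

`2 ^ e ≤ ℓ < 2 ^ (e + 1)` the length of the windows, `2 ^ lam` the inverse of the additive error
relative to `ℓ`, `2 ^ kap` the number of instances which have to be good simultaneously. -/

set_option autoImplicit false

namespace Vale.Agent.P315.H36

open Vale.Agent.P315 Vale.Agent.P315.H142

/-- Parameters (logarithms). -/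
structure SP where
  e : ℕ
  lam : ℕ
  kap : ℕ

namespace SP

variable (q : SP)

/-- logarithm of the window length -/
def lw : ℕ := 8 * q.e / 10
/-- logarithm of the block length -/
def lc : ℕ := 9 * q.e / 10
/-- logarithm of the number of nearest grid points -/
def ld : ℕ := q.e / 20
/-- logarithm of the grid step -/
def lg : ℕ := q.lw - (q.lam + 6)
/-- logarithm of the number of grid points -/
def lM : ℕ := q.e + 1 - q.lg
/-- logarithm of the number of sampled offsets -/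
def lR : ℕ := 11 + q.lam + q.kap
/-- logarithm of the number of pivots -/
def ls : ℕ := q.lR + q.lM - q.ld

/-- window length -/
def w : ℕ := 2 ^ q.lw
/-- grid step -/
def g : ℕ := 2 ^ q.lg
/-- window length in grid steps -/
def v : ℕ := 2 ^ (q.lam + 6)
/-- windows per block -/
def b : ℕ := 2 ^ (q.lc - q.lw)
/-- number of nearest grid points -/
def d : ℕ := 2 ^ q.ld
/-- number of grid points -/
def M : ℕ := 2 ^ q.lM
/-- number of sampled offsets -/
def R : ℕ := 2 ^ q.lR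
/-- number of pivots -/
def s : ℕ := 2 ^ q.ls
/-- largest number of blocks -/
def K : ℕ := 2 ^ (q.e + 1 - q.lc)

/-- The instance for the starts `px`, `py`. -/
def pm (X Y : ℕ → ℕ) (px py : ℕ) : Pm where
  X := X
  Y := Y
  px := px
  lx := 0
  py := py
  ly := 0
  g := q.g
  v := q.v
  b := q.b
  K := q.K
  M := q.M
  d := q.d

/-- The condition for the parameters. -/
def Ok : Prop := 10 * (q.lam + 8) ≤ q.e

variable {q}

theorem lw_ge (h : q.Ok) : q.lam + 6 ≤ q.lw := by unfold Ok lw at *; omega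
theorem lc_le (h : q.Ok) : q.lc + 4 + q.lam + 3 ≤ q.e := by unfold Ok lc at *; omega
theorem lw_le_lc (q : SP) : q.lw ≤ q.lc := by unfold lw lc; omega
theorem lw_le (h : q.Ok) : q.lw + q.lam + 7 ≤ q.e := by
  have := lc_le h; have := lw_le_lc q; omega

theorem gv (h : q.Ok) : q.g * q.v = q.w := by
  have := lw_ge h
  unfold g v w lg
  rw [← pow_add]; congr 1; omega

theorem bw (q : SP) : q.b * q.w = 2 ^ q.lc := by
  unfold b w
  rw [← pow_add]; congr 1; have := lw_le_lc q; omega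

theorem Mg (h : q.Ok) : q.M * q.g = 2 ^ (q.e + 1) := by
  unfold M g lM
  rw [← pow_add]; congr 1
  have := lw_le h
  unfold lg
  omega

theorem ld_le (h : q.Ok) : q.ld ≤ q.lM := by
  have := lw_le h
  unfold lM lg
  unfold ld lw Ok at *
  omega

theorem sd (h : q.Ok) : q.s * q.d = q.R * q.M := by
  unfold s d R M
  rw [← pow_add, ← pow_add]; congr 1
  have := ld_le h
  unfold ls; omega

theorem Kbw (h : q.Ok) : q.K * (q.b * q.w) = 2 ^ (q.e + 1) := by
  rw [bw]
  unfold K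
  rw [← pow_add]; congr 1; have := lc_le h; omega

variable {X Y : ℕ → ℕ}

theorem pm_w (h : q.Ok) (px py : ℕ) : (q.pm X Y px py).w = q.w := gv h

theorem pm_k (h : q.Ok) (px py : ℕ) {lx : ℕ} (ly : ℕ) (hlx : lx < 2 ^ (q.e + 1)) :
    ((q.pm X Y px py).ends lx ly).k * q.w < 2 ^ (q.e + 1) ∧
    lx / ((q.pm X Y px py).b * (q.pm X Y px py).w) ≤ (q.pm X Y px py).K := by
  have e1 : ((q.pm X Y px py).ends lx ly).k * q.w = lx / (q.b * q.w) * (q.b * q.w) := by
    show lx / (q.b * (q.pm X Y px py).w) * q.b * q.w = _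
    rw [pm_w h]; ring
  refine ⟨?_, ?_⟩
  · rw [e1]; exact (Nat.div_mul_le_self _ _).trans_lt hlx
  · rw [pm_w h]
    show lx / (q.b * q.w) ≤ q.K
    refine Nat.div_le_of_le_mul ?_
    rw [Nat.mul_comm, Kbw h]; exact hlx.le

/-- Value of one instance, if the number of bad windows is small. -/
theorem val_small (h : q.Ok) {px py : ℕ} {A B : ℕ → ℕ → ℕ} {piv smp : Finset ℕ}
    {S : ℕ → Finset ℕ} (hG : Good (q.pm X Y px py) A B piv smp S) (hsb : ∀ r ∈ smp, r < q.b)
    {lx ly : ℕ} (hlx : lx < 2 ^ (q.e + 1)) (hly : ly < 2 ^ (q.e + 1)) {f : ℕ → ℕ}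
    (hf : Al ((q.pm X Y px py).ends lx ly) f)
    (hm : nb ((q.pm X Y px py).ends lx ly) f piv smp 0 ((q.pm X Y px py).ends lx ly).k ≤
      2 ^ (q.e - q.lam - 3 - q.lw)) :
    val (q.pm X Y px py) A B lx ly ≤ 10 * dist X Y px lx py ly + 2 ^ (q.e - q.lam) := by
  obtain ⟨h1, h2⟩ := pm_k (X := X) (Y := Y) h px py ly hlx
  have hg : 0 < (q.pm X Y px py).g := Nat.pow_pos (by norm_num)
  have hb : 0 < (q.pm X Y px py).b := Nat.pow_pos (by norm_num)
  have hv : 0 < (q.pm X Y px py).v := Nat.pow_pos (by norm_num)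
  have hly' : ly < (q.pm X Y px py).M * (q.pm X Y px py).g := by
    show ly < q.M * q.g
    rw [Mg h]; exact hly
  have h3 := val_le hg hb hv hG hsb h2 hly' hf
  set k := ((q.pm X Y px py).ends lx ly).k with hk
  set n := nb ((q.pm X Y px py).ends lx ly) f piv smp 0 k with hn
  change _ ≤ 10 * dist X Y px lx py ly + 11 * (q.b * (q.pm X Y px py).w) + q.g + 8 * q.g * k +
    2 * (q.pm X Y px py).w * n at h3
  rw [pm_w h] at h3
  have hc := lc_le h
  have hw := lw_le h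
  have hw' := lw_ge h
  obtain ⟨t, ht⟩ : ∃ t, q.e - q.lam = t + 3 := ⟨q.e - q.lam - 3, by omega⟩
  -- the four error terms
  have b1 : 11 * (q.b * q.w) ≤ 2 ^ t * 1 := by
    rw [bw]
    have : (2 : ℕ) ^ (q.lc + 4) ≤ 2 ^ t := Nat.pow_le_pow_right (by norm_num) (by omega)
    rw [pow_add] at this
    omega
  have b2 : q.g ≤ 2 ^ t := Nat.pow_le_pow_right (by norm_num) (by unfold lg; omega)
  have b3 : 8 * q.g * k ≤ 2 * 2 ^ t := by
    have e1 : q.g * q.v = q.w := gv h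
    have e2 : 8 * q.g * k * q.v = 8 * (k * q.w) := by rw [← e1]; ring
    have e3 : 2 * 2 ^ t * q.v = 2 ^ (q.e + 4) := by
      unfold v
      rw [← pow_succ', ← pow_add]; congr 1; omega
    have hv0 : 0 < q.v := Nat.pow_pos (by norm_num)
    refine Nat.le_of_mul_le_mul_right ?_ hv0
    rw [e2, e3]
    have : (2 : ℕ) ^ (q.e + 4) = 8 * 2 ^ (q.e + 1) := by
      rw [show q.e + 4 = (q.e + 1) + 3 by ring, pow_add]; ring
    rw [this]
    exact Nat.mul_le_mul_left _ h1.le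
  have b4 : 2 * q.w * n ≤ 2 * 2 ^ t := by
    have e1 : 2 * q.w * 2 ^ (q.e - q.lam - 3 - q.lw) = 2 * 2 ^ t := by
      unfold w
      rw [mul_assoc, ← pow_add]; congr 2; omega
    rw [← e1]
    exact Nat.mul_le_mul_left _ hm
  rw [ht, pow_add]
  omega

open Classical in
/-- **The base algorithm is good for all members of a family of at most `2 ^ kap` instances, with
probability at least `63/64`.** -/
theorem start_main (h : q.Ok) {A B : (Fin q.s → Fin q.M) → (Fin q.R → Fin q.b) → ℕ → ℕ → ℕ → ℕ → ℕ}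
    {S : (Fin q.s → Fin q.M) → (Fin q.R → Fin q.b) → ℕ → ℕ → ℕ → Finset ℕ}
    (hG : ∀ p r px py, Good (q.pm X Y px py) (A p r px py) (B p r px py) (pv p) (pv r)
      (S p r px py))
    (T : Finset (ℕ × ℕ × ℕ × ℕ)) (hT : T.card ≤ 2 ^ q.kap)
    (hT' : ∀ t ∈ T, t.2.1 < 2 ^ (q.e + 1) ∧ t.2.2.2 < 2 ^ (q.e + 1)) :
    64 * (Finset.univ.filter (fun z : (Fin q.s → Fin q.M) × (Fin q.R → Fin q.b) =>
      ∃ t ∈ T, 10 * dist X Y t.1 t.2.1 t.2.2.1 t.2.2.2 + 2 ^ (q.e - q.lam) <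
        val (q.pm X Y t.1 t.2.2.1) (A z.1 z.2 t.1 t.2.2.1) (B z.1 z.2 t.1 t.2.2.1)
          t.2.1 t.2.2.2)).card ≤ q.M ^ q.s * q.b ^ q.R := by
  have hg : 0 < q.g := Nat.pow_pos (by norm_num)
  have hb : 0 < q.b := Nat.pow_pos (by norm_num)
  have hv : 0 < q.v := Nat.pow_pos (by norm_num)
  have hok : ∀ t ∈ T, ((q.pm X Y t.1 t.2.2.1).ends t.2.1 t.2.2.2).Ok := by
    intro t ht
    refine ends_ok (P := q.pm X Y t.1 t.2.2.1) hg hb hv ?_
    show t.2.2.2 < q.M * q.g
    rw [Mg h]; exact (hT' t ht).2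
  have hal : ∀ t, ∃ f, t ∈ T → Al ((q.pm X Y t.1 t.2.2.1).ends t.2.1 t.2.2.2) f := by
    intro t
    by_cases ht : t ∈ T
    · obtain ⟨f, hf⟩ := exists_al (hok t ht)
      exact ⟨f, fun _ => hf⟩
    · exact ⟨fun _ => 0, fun h => absurd h ht⟩
  choose f hf using hal
  obtain ⟨k, hk⟩ : ∃ k, k = 2 ^ (q.e + 1 - q.lw) := ⟨_, rfl⟩
  obtain ⟨m, hm⟩ : ∃ m, m = 2 ^ (q.e - q.lam - 3 - q.lw) := ⟨_, rfl⟩
  have hwl := lw_le h
  have hkle : ∀ t ∈ T, ((q.pm X Y t.1 t.2.2.1).ends t.2.1 t.2.2.2).k ≤ k := by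
    intro t ht
    have h1 := (pm_k (X := X) (Y := Y) h t.1 t.2.2.1 t.2.2.2 (hT' t ht).1).1
    have e1 : k * q.w = 2 ^ (q.e + 1) := by
      rw [hk]; unfold w; rw [← pow_add]; congr 1; omega
    have hw0 : 0 < q.w := Nat.pow_pos (by norm_num)
    refine Nat.le_of_mul_le_mul_right ?_ hw0
    rw [e1]; exact h1.le
  have hmk := markov_all T (fun t => (q.pm X Y t.1 t.2.2.1).ends t.2.1 t.2.2.2) f hok
    (M := q.M) (b := q.b) (d := q.d) (fun _ _ => rfl) (fun _ _ => rfl) (fun _ _ => rfl) hkle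
    q.s q.R m
  set bad := (Finset.univ.filter (fun z : (Fin q.s → Fin q.M) × (Fin q.R → Fin q.b) =>
    ∃ t ∈ T, m < nb ((q.pm X Y t.1 t.2.2.1).ends t.2.1 t.2.2.2) (f t) (pv z.1) (pv z.2) 0
      ((q.pm X Y t.1 t.2.2.1).ends t.2.1 t.2.2.2).k)).card with hbad
  refine le_trans (Nat.mul_le_mul_left 64 (Finset.card_le_card (t :=
    Finset.univ.filter (fun z : (Fin q.s → Fin q.M) × (Fin q.R → Fin q.b) =>
    ∃ t ∈ T, m < nb ((q.pm X Y t.1 t.2.2.1).ends t.2.1 t.2.2.2) (f t) (pv z.1) (pv z.2) 0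
      ((q.pm X Y t.1 t.2.2.1).ends t.2.1 t.2.2.2).k)) ?_)) ?_
  · intro z hz
    obtain ⟨t, ht, hlt⟩ := (Finset.mem_filter.mp hz).2
    refine Finset.mem_filter.mpr ⟨Finset.mem_univ _, t, ht, ?_⟩
    by_contra hc
    rw [not_lt, hm] at hc
    have := val_small h (hG z.1 z.2 t.1 t.2.2.1) (fun x hx => by
      obtain ⟨y, _, rfl⟩ := Finset.mem_image.mp hx
      exact (z.2 y).2) (hT' t ht).1 (hT' t ht).2 (hf t ht) hc
    omega
  · rw [← hbad]
    obtain ⟨N, hN⟩ : ∃ N, N = q.M ^ q.s * q.b ^ q.R := ⟨_, rfl⟩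
    rw [← hN] at hmk ⊢
    rw [sd h] at hmk
    have hR0 : 0 < q.R := Nat.pow_pos (by norm_num)
    have hM0 : 0 < q.M := Nat.pow_pos (by norm_num)
    have hm0 : 0 < m := by rw [hm]; exact Nat.pow_pos (by norm_num)
    have hkm : k = 2 ^ (q.lam + 4) * m := by
      rw [hk, hm, ← pow_add]; congr 1; omega
    have hR : q.R = 64 * (2 ^ q.kap * (2 ^ (q.lam + 4) * 2)) := by
      unfold R lR
      rw [show 11 + q.lam + q.kap = 6 + (q.kap + (q.lam + 4 + 1)) by ring]
      simp only [pow_add]; norm_num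
    have h1 : m * (q.R * q.M * (q.R + 1)) * bad ≤
        2 ^ q.kap * (N * (2 ^ (q.lam + 4) * m * (2 * (q.R + 1) * q.M))) := by
      calc m * (q.R * q.M * (q.R + 1)) * bad ≤ (m + 1) * (q.R * q.M * (q.R + 1)) * bad :=
            Nat.mul_le_mul_right _ (Nat.mul_le_mul_right _ (Nat.le_succ m))
        _ ≤ _ := hmk
        _ ≤ 2 ^ q.kap * (N * (k * ((q.R + 1) * q.M + q.R * q.M))) :=
            Nat.mul_le_mul_right _ hT
        _ ≤ 2 ^ q.kap * (N * (2 ^ (q.lam + 4) * m * (2 * (q.R + 1) * q.M))) := by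
            rw [hkm]
            refine Nat.mul_le_mul_left _ (Nat.mul_le_mul_left _ (Nat.mul_le_mul_left _ ?_))
            nlinarith
    have h2 : (m * q.M * (q.R + 1) * (2 ^ q.kap * (2 ^ (q.lam + 4) * 2))) * (64 * bad) ≤
        (m * q.M * (q.R + 1) * (2 ^ q.kap * (2 ^ (q.lam + 4) * 2))) * N := by
      calc (m * q.M * (q.R + 1) * (2 ^ q.kap * (2 ^ (q.lam + 4) * 2))) * (64 * bad)
          = m * (64 * (2 ^ q.kap * (2 ^ (q.lam + 4) * 2)) * q.M * (q.R + 1)) * bad := by ring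
        _ = m * (q.R * q.M * (q.R + 1)) * bad := by rw [← hR]
        _ ≤ _ := h1
        _ = _ := by ring
    refine Nat.le_of_mul_le_mul_left h2 ?_
    positivity

end SP

end Vale.Agent.P315.H36
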