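import Vale.Agent.P315.Seg

/-! Splitting the distance of two segments; breakpoints of an optimal alignment. -/

set_option autoImplicit false

namespace Vale.Agent.P315.H36

open Vale.Agent.P315

theorem lev_comm (xs ys : List ℕ) : lev xs ys = lev ys xs :=
  le_antisymm ((script_lev ys xs).symm.lev_le) ((script_lev xs ys).symm.lev_le)

theorem dist_comm' (X Y : ℕ → ℕ) (p l q k : ℕ) : dist X Y p l q k = dist Y X q k p l :=
  lev_comm _ _

theorem dist_tri (X Y Z : ℕ → ℕ) (p l q k r m : ℕ) :
    dist X Z p l r m ≤ dist X Y p l q k + dist Y Z q k r m := lev_triangle _ _ _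

theorem dist_split (X Y : ℕ → ℕ) (p l l' q k : ℕ) : ∃ c ≤ k,
    dist X Y p l q c + dist X Y (p + l) l' (q + c) (k - c) ≤ dist X Y p (l + l') q k := by
  have h := (script_lev (seg X p (l + l')) (seg Y q k)).symm
  obtain ⟨x1, x2, c1, c2, h1, h2, h3, h4⟩ := h.split (seg X p l) (seg X (p + l) l') (seg_add X p l l')
  have hlen : x1.length + x2.length = k := by
    have := congrArg List.length h1
    simpa [length_seg] using this.symm
  have e : seg Y q k = seg Y q x1.length ++ seg Y (q + x1.length) (k - x1.length) := by
    rw [← seg_add]; congr 1; omega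
  have e2 := h1.symm.trans e
  obtain ⟨e3, e4⟩ := List.append_inj e2 (by simp [length_seg])
  refine ⟨x1.length, by omega, ?_⟩
  have g1 : dist X Y p l q x1.length ≤ c1 := by
    unfold dist; rw [← e3, lev_comm]; exact h3.lev_le
  have g2 : dist X Y (p + l) l' (q + x1.length) (k - x1.length) ≤ c2 := by
    unfold dist; rw [← e4, lev_comm]; exact h4.lev_le
  have g3 : dist X Y p (l + l') q k = c1 + c2 := h2
  omega

theorem exists_breaks (X Y : ℕ → ℕ) (px w py ly : ℕ) (k : ℕ) : ∀ rest : ℕ, ∃ f : ℕ → ℕ,
    Monotone f ∧ f 0 = 0 ∧ f k ≤ ly ∧ (∀ i, f i ≤ ly) ∧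
    (∑ i ∈ Finset.range k, dist X Y (px + i * w) w (py + f i) (f (i + 1) - f i)) +
      dist X Y (px + k * w) rest (py + f k) (ly - f k) ≤ dist X Y px (k * w + rest) py ly := by
  induction k with
  | zero =>
    intro rest
    refine ⟨fun _ => 0, monotone_const, rfl, Nat.zero_le _, fun _ => Nat.zero_le _, ?_⟩
    simp
  | succ k ih =>
    intro rest
    obtain ⟨f, hm, h0, hk, hle, hs⟩ := ih (w + rest)
    obtain ⟨c, hc, hd⟩ := dist_split X Y (px + k * w) w rest (py + f k) (ly - f k)
    refine ⟨fun i => if i ≤ k then f i else f k + c, ?_, ?_, ?_, ?_, ?_⟩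
    · intro i j hij
      by_cases hj : j ≤ k
      · simp only [hj, if_true, hij.trans hj]; exact hm hij
      · by_cases hi : i ≤ k
        · simp only [hj, hi, if_true, if_false]; exact (hm hi).trans (Nat.le_add_right _ _)
        · simp [hi, hj]
    · simp [h0]
    · simp; omega
    · intro i
      by_cases hi : i ≤ k
      · simp only [hi, if_true]; exact hle i
      · simp only [hi, if_false]; omega
    · rw [Finset.sum_range_succ]
      have e1 : ∑ i ∈ Finset.range k, dist X Y (px + i * w) w
          (py + (if i ≤ k then f i else f k + c))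
          ((if i + 1 ≤ k then f (i + 1) else f k + c) - (if i ≤ k then f i else f k + c)) =
          ∑ i ∈ Finset.range k, dist X Y (px + i * w) w (py + f i) (f (i + 1) - f i) := by
        apply Finset.sum_congr rfl
        intro i hi
        have hi' : i < k := Finset.mem_range.mp hi
        rw [if_pos (by omega), if_pos (by omega)]
      rw [e1]
      simp only [le_refl, if_true, show ¬ (k + 1 ≤ k) by omega, if_false]
      have e2 : f k + c - f k = c := by omega
      have e3 : px + (k + 1) * w = px + k * w + w := by ring
      have e4 : py + (f k + c) = py + f k + c := by ring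
      have e5 : ly - (f k + c) = ly - f k - c := by omega
      have e6 : (k + 1) * w + rest = k * w + (w + rest) := by ring
      rw [e2, e3, e4, e5, e6]
      omega

/-- The distances of consecutive pieces add up. -/
theorem dist_sum_le (X Y : ℕ → ℕ) {f : ℕ → ℕ} (hf : Monotone f) (px w py a : ℕ) (n : ℕ) :
    dist X Y (px + a * w) (n * w) (py + f a) (f (a + n) - f a) ≤
      ∑ i ∈ Finset.range n, dist X Y (px + (a + i) * w) w (py + f (a + i))
        (f (a + i + 1) - f (a + i)) := by
  induction n with
  | zero => simp [dist_zero_left]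
  | succ n ih =>
    rw [Finset.sum_range_succ]
    have h1 : f a ≤ f (a + n) := hf (by omega)
    have h2 : f (a + n) ≤ f (a + n + 1) := hf (by omega)
    have h3 := dist_add X Y (px + a * w) (n * w) (py + f a) (f (a + n) - f a) w
      (f (a + n + 1) - f (a + n))
    have e1 : n * w + w = (n + 1) * w := by ring
    have e2 : f (a + n) - f a + (f (a + n + 1) - f (a + n)) = f (a + (n + 1)) - f a := by
      rw [← Nat.add_assoc]; omega
    have e3 : px + a * w + n * w = px + (a + n) * w := by ring
    have e4 : py + f a + (f (a + n) - f a) = py + f (a + n) := by omega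
    rw [e1, e2, e3, e4] at h3
    omega

end Vale.Agent.P315.H36
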