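import Vale.Agent.P315.H36.Cost
import Vale.Agent.P315.H36.Vis
import Vale.Agent.P315.H817.Fn
import Vale.Agent.P315.DP

/-! The table of the visible costs on the clamped language: loops over the rows, the starts and
the ends around one run of the base algorithm (a variable program).

Inputs: registers `200` number of rows, `201` number of starts, `202` number of ends, `203` mesh,
`204` half of the length of a row, `205` origin, `215` grid step, `216` block length, `217` length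
of a block row. Registers `209`, `210`: starts of the run. Scratch `206`–`214`, `218`, `219`. Output:
array `150`. -/

set_option autoImplicit false

namespace Vale.Agent.P315.H36

open Vale.Agent.P315 Vale.Agent.P315.H142 Vale.Agent.P315.H54 Vale.Agent.P315.H817

/-! ### Values -/

section
variable (P : Pm) (A B : ℕ → ℕ → ℕ) (K lx ly : ℕ)

theorem winr_cut (a : ℕ) (row : ℕ → ℕ) (r : ℕ) :
    winr (P.cut K lx ly) A a row r = winr P A a row r := by
  induction r with
  | zero => rfl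
  | succ r ih =>
    show lipc P.g (step1 (P.cut K lx ly) A (a * P.b + r) (winr (P.cut K lx ly) A a row r)) _ = _
    rw [ih]; rfl

theorem blk_cut (a : ℕ) : blk (P.cut K lx ly) A B a = blk P A B a := by
  induction a with
  | zero => rfl
  | succ a ih =>
    show lipc P.g (stepB (P.cut K lx ly) B a (winr (P.cut K lx ly) A a (blk (P.cut K lx ly) A B a)
      P.b) (blk (P.cut K lx ly) A B a)) _ = _
    rw [ih, winr_cut]; rfl

end

/-- Position of the point with coordinate `p` in row boundary `i` (moving frame, clamped). -/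
def xiM (l2 c0 i p : ℕ) : ℕ := min (p + i * l2 - c0) (i * (2 * l2))

theorem xiM_adm (l2 c0 i : ℕ) {p p' : ℕ} (h1 : p' ≤ p + l2) (h2 : p ≤ p' + l2) :
    xiM l2 c0 i p ≤ xiM l2 c0 (i + 1) p' ∧ xiM l2 c0 (i + 1) p' ≤ xiM l2 c0 i p + 2 * l2 := by
  unfold xiM
  have e1 : (i + 1) * l2 = i * l2 + l2 := by ring
  have e2 : (i + 1) * (2 * l2) = i * (2 * l2) + 2 * l2 := by ring
  rw [e1, e2]
  omega

namespace SP

/-- The block rows of the run with the starts `px`, `py`. -/
noncomputable def vblk (q : SP) (X Y hub off : ℕ → ℕ) (px py a j : ℕ) : ℕ :=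
  blk (q.pm X Y px py) (fun i j => Aof (q.pm X Y px py) hub i j q.s)
    (Bof (q.pm X Y px py) q.R off) a j

/-- The value for the ends `lx`, `ly` from the block rows. -/
def endVal (g bw : ℕ) (F : ℕ → ℕ → ℕ) (lx ly : ℕ) : ℕ :=
  min (min (F (lx / bw) (ly / g) + (ly - ly / g * g))
    (F (lx / bw) (ly / g + 1) + ((ly / g + 1) * g - ly)) + (lx - lx / bw * bw)) (lx + ly)

variable {q : SP} {X Y : ℕ → ℕ}

theorem visE_eq (h : q.Ok) (hub off : ℕ → ℕ) (t u t' v : ℕ) :
    q.visE X Y hub off t u t' v = endVal q.g (q.b * q.w) (q.vblk X Y hub off u (t - u)) (v - u)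
      ((t' - v) - (t - u)) := by
  unfold visE
  rw [startVal_ends]
  have e1 : (q.pm X Y u (t - u)).b * (q.pm X Y u (t - u)).w = q.b * q.w := by
    rw [pm_w h]; rfl
  unfold val outF
  rw [e1, blk_cut]
  have e2 : ((q.pm X Y u (t - u)).cut ((v - u) / (q.b * q.w)) (v - u)
      ((t' - v) - (t - u))).k * ((q.pm X Y u (t - u)).cut ((v - u) / (q.b * q.w)) (v - u)
      ((t' - v) - (t - u))).w = (v - u) / (q.b * q.w) * (q.b * q.w) := by
    show (v - u) / (q.b * q.w) * q.b * (q.pm X Y u (t - u)).w = _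
    rw [pm_w h]; ring
  rw [e2]
  rfl

end SP

/-! ### The program -/

/-- Clamped position in row `206`. -/
def ePx : Expr := emin (esub (eadd (emul (.reg 203) (.reg 207)) (emul (.reg 206) (.reg 204)))
  (.reg 205)) (emul (.reg 206) (emul (.lit 2) (.reg 204)))

/-- Clamped position of the end. -/
def eV : Expr := emin (esub (eadd (esub (eadd (emul (.reg 203) (.reg 207))
  (emul (.reg 203) (.reg 208))) (.reg 204)) (emul (eadd (.reg 206) (.lit 1)) (.reg 204)))
  (.reg 205)) (emul (eadd (.reg 206) (.lit 1)) (emul (.lit 2) (.reg 204)))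

/-- The two candidates, from the block rows in array `aF`. -/
def eA (aF : ℕ) : Expr := eadd (.get aF (eadd (emul (.reg 214) (.reg 217)) (.reg 218)))
  (esub (.reg 213) (emul (.reg 218) (.reg 215)))

def eB (aF : ℕ) : Expr :=
  eadd (.get aF (eadd (emul (.reg 214) (.reg 217)) (eadd (.reg 218) (.lit 1))))
    (esub (emul (eadd (.reg 218) (.lit 1)) (.reg 215)) (.reg 213))

/-- The value. -/
def eVal : Expr := emin (eadd (.reg 219) (esub (.reg 212) (emul (.reg 214) (.reg 216))))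
  (eadd (.reg 212) (.reg 213))

/-- One end. -/
def endHP (aF : ℕ) : HP :=
  .seq (.set 211 eV)
  (.seq (.set 212 (esub (.reg 211) (.reg 209)))
  (.seq (.set 213 (esub (esub (emul (eadd (.reg 206) (.lit 1)) (emul (.lit 2) (.reg 204)))
    (.reg 211)) (.reg 210)))
  (.seq (.set 214 (ediv (.reg 212) (.reg 216)))
  (.seq (.set 218 (ediv (.reg 213) (.reg 215)))
  (.seq (.set 219 (emin (eA aF) (eadd (.reg 212) (.reg 213))))
  (.seq (.set 219 (emin (eB aF) (.reg 219)))
  (.put 150 (eadd (emul (eadd (emul (.reg 206) (.reg 201)) (.reg 207)) (.reg 202)) (.reg 208))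
    eVal)))))))

/-- One start. -/
def startHP (run : HP) (aF : ℕ) : HP :=
  .seq (.set 209 ePx)
  (.seq (.set 210 (esub (emul (.reg 206) (emul (.lit 2) (.reg 204))) (.reg 209)))
  (.seq run (.loop 208 (.reg 202) (endHP aF))))

/-- The table. -/
def visHP (run : HP) (aF : ℕ) : HP :=
  .loop 206 (.reg 200) (.loop 207 (.reg 201) (startHP run aF))

variable {ρ : ℕ → ℕ}

/-- Geometry of the table. -/
structure Tb where
  Kr : ℕ
  nS : ℕ
  nE : ℕ
  mu : ℕ
  l2 : ℕ
  c0 : ℕ

/-- The registers of the geometry. -/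
structure TbEnv (T : Tb) (q : SP) (s : State) : Prop where
  r200 : s.reg 200 = T.Kr
  r201 : s.reg 201 = T.nS
  r202 : s.reg 202 = T.nE
  r203 : s.reg 203 = T.mu
  r204 : s.reg 204 = T.l2
  r205 : s.reg 205 = T.c0
  r215 : s.reg 215 = q.g
  r216 : s.reg 216 = q.b * q.w
  r217 : s.reg 217 = q.M + q.b * q.v + 1
  l1 : T.Kr ≤ s.reg 4
  l2' : T.nS ≤ s.reg 4
  l3 : T.nE ≤ s.reg 4
  b1 : T.Kr * (2 * T.l2) ≤ s.reg 3

/-- The written registers of the outer loops. -/
def myW : List ℕ := [206, 207, 208, 209, 210, 211, 212, 213, 214, 218, 219]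

theorem TbEnv.frame {T : Tb} {q : SP} {s s' : State} {wr wa : List ℕ} (h : TbEnv T q s)
    (hf : Frame s s' wr wa) (h1 : ∀ k ∈ wr, k ∉ [3, 4, 200, 201, 202, 203, 204, 205, 215, 216, 217]) :
    TbEnv T q s' := by
  have hr : ∀ k ∈ [3, 4, 200, 201, 202, 203, 204, 205, 215, 216, 217], s'.reg k = s.reg k :=
    fun k hk => hf.reg k (fun hk' => h1 k hk' hk)
  exact ⟨by rw [hr 200 (by decide)]; exact h.r200, by rw [hr 201 (by decide)]; exact h.r201,
    by rw [hr 202 (by decide)]; exact h.r202, by rw [hr 203 (by decide)]; exact h.r203,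
    by rw [hr 204 (by decide)]; exact h.r204, by rw [hr 205 (by decide)]; exact h.r205,
    by rw [hr 215 (by decide)]; exact h.r215, by rw [hr 216 (by decide)]; exact h.r216,
    by rw [hr 217 (by decide)]; exact h.r217, by rw [hr 4 (by decide)]; exact h.l1,
    by rw [hr 4 (by decide)]; exact h.l2', by rw [hr 4 (by decide)]; exact h.l3,
    by rw [hr 3 (by decide)]; exact h.b1⟩

/-- The entry `(i, r, e)` of the table. -/
noncomputable def Tb.entry (T : Tb) (q : SP) (X Y hub off : ℕ → ℕ) (i r e : ℕ) : ℕ :=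
  q.visE X Y hub off (i * (2 * T.l2)) (xiM T.l2 T.c0 i (T.mu * r)) ((i + 1) * (2 * T.l2))
    (xiM T.l2 T.c0 (i + 1) (T.mu * r + T.mu * e - T.l2))

/-- The geometry fits the parameters. -/
structure Tb.Ok (T : Tb) (q : SP) : Prop where
  hq : q.Ok
  ends : ∀ e < T.nE, T.mu * e ≤ 2 * T.l2
  len : 2 * T.l2 < 2 ^ (q.e + 1)

section
variable {T : Tb} {q : SP} {X Y hub off : ℕ → ℕ} {aF : ℕ}

theorem endHP_spec (hT : T.Ok q) (haF : aF ≠ 150) {s : State} (hE : TbEnv T q s) {i r e : ℕ}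
    (hi : i < T.Kr) (he : e < T.nE) (h206 : s.reg 206 = i) (h207 : s.reg 207 = r)
    (h208 : s.reg 208 = e) (h209 : s.reg 209 = xiM T.l2 T.c0 i (T.mu * r))
    (h210 : s.reg 210 = i * (2 * T.l2) - xiM T.l2 T.c0 i (T.mu * r))
    (hF : ∀ a ≤ q.K, ∀ j ≤ q.M + q.b * q.v, s.arr aF (a * (q.M + q.b * q.v + 1) + j) =
      q.vblk X Y hub off (xiM T.l2 T.c0 i (T.mu * r))
        (i * (2 * T.l2) - xiM T.l2 T.c0 i (T.mu * r)) a j) :
    Wp ρ (endHP aF) (fun s' =>
      (∀ u, u ≠ (i * T.nS + r) * T.nE + e → s'.arr 150 u = s.arr 150 u) ∧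
      s'.arr 150 ((i * T.nS + r) * T.nE + e) = T.entry q X Y hub off i r e) s := by
  obtain ⟨u, hu⟩ : ∃ u, u = xiM T.l2 T.c0 i (T.mu * r) := ⟨_, rfl⟩
  obtain ⟨v, hv⟩ : ∃ v, v = xiM T.l2 T.c0 (i + 1) (T.mu * r + T.mu * e - T.l2) := ⟨_, rfl⟩
  have hadm := xiM_adm T.l2 T.c0 i (p := T.mu * r) (p' := T.mu * r + T.mu * e - T.l2)
    (by have := hT.ends e he; omega) (by omega)
  rw [← hu, ← hv] at hadm
  rw [← hu] at h209 h210 hF
  have hut : u ≤ i * (2 * T.l2) := by rw [hu]; exact min_le_right _ _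
  have hvt : v ≤ (i + 1) * (2 * T.l2) := by rw [hv]; exact min_le_right _ _
  have et : (i + 1) * (2 * T.l2) = i * (2 * T.l2) + 2 * T.l2 := by ring
  have hbd : (i + 1) * (2 * T.l2) ≤ s.reg 3 := (Nat.mul_le_mul_right _ hi).trans hE.b1
  obtain ⟨lx, hlx⟩ : ∃ lx, lx = v - u := ⟨_, rfl⟩
  obtain ⟨ly, hly⟩ : ∃ ly, ly = ((i + 1) * (2 * T.l2) - v) - (i * (2 * T.l2) - u) := ⟨_, rfl⟩
  have hlen := hT.len
  have hlx1 : lx < 2 ^ (q.e + 1) := by omega
  have hly1 : ly < 2 ^ (q.e + 1) := by omega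
  have hK' : lx / (q.b * q.w) ≤ q.K := by
    refine Nat.div_le_of_le_mul ?_
    rw [Nat.mul_comm, SP.Kbw hT.hq]; exact hlx1.le
  have hm' : ly / q.g < q.M := by
    have hg : 0 < q.g := Nat.pow_pos (by norm_num)
    rw [Nat.div_lt_iff_lt_mul hg, SP.Mg hT.hq]; exact hly1
  have hbv : 0 < q.b * q.v := Nat.mul_pos (Nat.pow_pos (by norm_num)) (Nat.pow_pos (by norm_num))
  have hK'' : lx / (q.b * q.w) ≤ lx := Nat.div_le_self _ _
  have hm'' : ly / q.g ≤ ly := Nat.div_le_self _ _
  have hent : T.entry q X Y hub off i r e =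
      SP.endVal q.g (q.b * q.w) (q.vblk X Y hub off u (i * (2 * T.l2) - u)) lx ly := by
    unfold Tb.entry
    rw [SP.visE_eq hT.hq, ← hu, ← hv, ← hlx, ← hly]
  rw [hent]
  unfold endHP
  refine Wp.seq (Wp.set v ?_ (by omega) ?_)
  · simp only [eV, emin_eval, esub_eval, eadd_eval, emul_eval, reg_eval, lit_eval, hE.r203,
      hE.r204, hE.r205, h206, h207, h208]
    rw [hv]; rfl
  refine Wp.seq (Wp.set lx ?_ ?_ ?_)
  · simp [h209, hlx]
  · simp only [State.setReg_reg, if_neg (show (3 : ℕ) ≠ 211 by decide)]; omega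
  refine Wp.seq (Wp.set ly ?_ ?_ ?_)
  · simp [h206, h210, hE.r204, hly]
  · simp only [State.setReg_reg, if_neg (show (3 : ℕ) ≠ 211 by decide),
      if_neg (show (3 : ℕ) ≠ 212 by decide)]; omega
  refine Wp.seq (Wp.set (lx / (q.b * q.w)) ?_ ?_ ?_)
  · simp [hE.r216]
  · simp only [State.setReg_reg, if_neg (show (3 : ℕ) ≠ 211 by decide),
      if_neg (show (3 : ℕ) ≠ 212 by decide), if_neg (show (3 : ℕ) ≠ 213 by decide)]; omega
  refine Wp.seq (Wp.set (ly / q.g) ?_ ?_ ?_)
  · simp [hE.r215]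
  · simp only [State.setReg_reg, if_neg (show (3 : ℕ) ≠ 211 by decide),
      if_neg (show (3 : ℕ) ≠ 212 by decide), if_neg (show (3 : ℕ) ≠ 213 by decide),
      if_neg (show (3 : ℕ) ≠ 214 by decide)]; omega
  have f1 := hF _ hK' (ly / q.g) (by omega)
  have f2 := hF _ hK' (ly / q.g + 1) (by omega)
  obtain ⟨Fv, hFv⟩ : ∃ Fv, Fv = q.vblk X Y hub off u (i * (2 * T.l2) - u) := ⟨_, rfl⟩
  rw [← hFv] at f1 f2 ⊢
  obtain ⟨a1, ha1⟩ : ∃ a1, a1 = Fv (lx / (q.b * q.w)) (ly / q.g) + (ly - ly / q.g * q.g) :=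
    ⟨_, rfl⟩
  obtain ⟨a2, ha2⟩ : ∃ a2, a2 = Fv (lx / (q.b * q.w)) (ly / q.g + 1) +
    ((ly / q.g + 1) * q.g - ly) := ⟨_, rfl⟩
  have hL : lx + ly ≤ s.reg 3 := by omega
  refine Wp.seq (Wp.set (min a1 (lx + ly)) ?_ ?_ ?_)
  · simp [eA, hE.r215, hE.r217, f1, ha1]
  · simp only [State.setReg_reg, if_neg (show (3 : ℕ) ≠ 211 by decide),
      if_neg (show (3 : ℕ) ≠ 212 by decide), if_neg (show (3 : ℕ) ≠ 213 by decide),
      if_neg (show (3 : ℕ) ≠ 214 by decide), if_neg (show (3 : ℕ) ≠ 218 by decide)]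
    omega
  refine Wp.seq (Wp.set (min a2 (min a1 (lx + ly))) ?_ ?_ ?_)
  · simp [eB, hE.r215, hE.r217, f2, ha2]
  · simp only [State.setReg_reg, if_neg (show (3 : ℕ) ≠ 211 by decide),
      if_neg (show (3 : ℕ) ≠ 212 by decide), if_neg (show (3 : ℕ) ≠ 213 by decide),
      if_neg (show (3 : ℕ) ≠ 214 by decide), if_neg (show (3 : ℕ) ≠ 218 by decide),
      if_neg (show (3 : ℕ) ≠ 219 by decide)]
    omega
  refine Wp.put ((i * T.nS + r) * T.nE + e)
    (SP.endVal q.g (q.b * q.w) Fv lx ly) ?_ ?_ ?_ ?_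
  · simp [h206, h207, h208, hE.r201, hE.r202]
  · simp only [eVal, emin_eval, eadd_eval, esub_eval, emul_eval, reg_eval, SP.endVal]
    simp only [State.setReg_reg, hE.r216]
    simp only [Nat.reduceEqDiff, if_true, if_false]
    rw [← ha1, ← ha2]
    omega
  · simp only [State.setReg_reg, if_neg (show (3 : ℕ) ≠ 211 by decide),
      if_neg (show (3 : ℕ) ≠ 212 by decide), if_neg (show (3 : ℕ) ≠ 213 by decide),
      if_neg (show (3 : ℕ) ≠ 214 by decide), if_neg (show (3 : ℕ) ≠ 218 by decide),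
      if_neg (show (3 : ℕ) ≠ 219 by decide)]
    exact (min_le_right _ _).trans hL
  · refine ⟨fun u' hu' => ?_, ?_⟩
    · simp [hu']
    · simp

theorem endHP_wr : (endHP aF).wr = [211, 212, 213, 214, 218, 219, 219] := rfl

theorem endHP_wa : (endHP aF).wa = [150] := rfl

/-- What is needed from the program of one run. -/
structure RunOk (ρ : ℕ → ℕ) (q : SP) (X Y hub off : ℕ → ℕ) (run : HP) (aF Bp TOT : ℕ)
    (Inv : State → Prop) : Prop where
  wr : ∀ k ∈ run.wr, k ∉ [3, 4, 200, 201, 202, 203, 204, 205, 206, 207, 209, 210, 215, 216, 217]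
  wa : ∀ k ∈ run.wa, k ≠ 150
  spec : ∀ s px py, Inv s → s.reg 209 = px → s.reg 210 = py → px ≤ Bp → py ≤ Bp →
    TOT ≤ s.reg 5 → Wp ρ run (fun s' => Inv s' ∧ s.reg 5 ≤ s'.reg 5 + TOT ∧
      ∀ a ≤ q.K, ∀ j ≤ q.M + q.b * q.v, s'.arr aF (a * (q.M + q.b * q.v + 1) + j) =
        q.vblk X Y hub off px py a j) s
  inv : ∀ s s', Frame s s' [206, 207, 208, 209, 210, 211, 212, 213, 214, 218, 219] [150] → Inv s →
    Inv s'

variable {run : HP} {Bp TOT : ℕ} {Inv : State → Prop}

theorem startHP_spec (hT : T.Ok q) (haF : aF ≠ 150)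
    (hR : RunOk ρ q X Y hub off run aF Bp TOT Inv) (hBp : T.Kr * (2 * T.l2) ≤ Bp) {s : State}
    (hE : TbEnv T q s) (hI : Inv s) {i r : ℕ} (hi : i < T.Kr) (h206 : s.reg 206 = i)
    (h207 : s.reg 207 = r) (hb : TOT ≤ s.reg 5) :
    Wp ρ (startHP run aF) (fun s' => Inv s' ∧ s.reg 5 ≤ s'.reg 5 + TOT ∧
      (∀ e < T.nE, s'.arr 150 ((i * T.nS + r) * T.nE + e) = T.entry q X Y hub off i r e) ∧
      ∀ u < (i * T.nS + r) * T.nE, s'.arr 150 u = s.arr 150 u) s := by
  obtain ⟨u, hu⟩ : ∃ u, u = xiM T.l2 T.c0 i (T.mu * r) := ⟨_, rfl⟩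
  have hut : u ≤ i * (2 * T.l2) := by rw [hu]; exact min_le_right _ _
  have hbd : i * (2 * T.l2) ≤ T.Kr * (2 * T.l2) := Nat.mul_le_mul_right _ hi.le
  have hb3 := hE.b1
  unfold startHP
  refine Wp.seq (Wp.set u ?_ (by omega) ?_)
  · simp only [ePx, emin_eval, esub_eval, eadd_eval, emul_eval, reg_eval, lit_eval, hE.r203,
      hE.r204, hE.r205, h206, h207]
    rw [hu]; rfl
  refine Wp.seq (Wp.set (i * (2 * T.l2) - u) ?_ ?_ ?_)
  · simp [h206, hE.r204]
  · simp only [State.setReg_reg, if_neg (show (3 : ℕ) ≠ 209 by decide)]; omega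
  obtain ⟨s2, hs2⟩ : ∃ s2, s2 = (s.setReg 209 u).setReg 210 (i * (2 * T.l2) - u) := ⟨_, rfl⟩
  rw [← hs2]
  have hf2 : Frame s s2 [209, 210] [] := by
    rw [hs2]
    exact ((frame_setReg s 209 u).mono (by simp) (by simp)).trans
      ((frame_setReg _ 210 _).mono (by simp) (by simp))
  have g209 : s2.reg 209 = u := by rw [hs2]; simp
  have g210 : s2.reg 210 = i * (2 * T.l2) - u := by rw [hs2]; simp
  have hE2 : TbEnv T q s2 := hE.frame hf2 (by decide)
  have hI2 : Inv s2 := hR.inv s s2 (hf2.mono (by decide) (by decide)) hI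
  have g5 : s2.reg 5 = s.reg 5 := hf2.reg 5 (by decide)
  refine Wp.seqF _ (hR.spec s2 u (i * (2 * T.l2) - u) hI2 g209 g210 (by omega) (by omega)
    (by rw [g5]; exact hb)) ?_
  rintro s3 hf3 ⟨hI3, h5, hF⟩
  have hE3 : TbEnv T q s3 := hE2.frame hf3 (fun k hk hk' => hR.wr k hk (by
    simp only [List.mem_cons, List.not_mem_nil, or_false] at hk' ⊢; tauto))
  have kk : ∀ n ∈ [206, 207, 209, 210], s3.reg n = s2.reg n := fun n hn =>
    hf3.reg n (fun h => hR.wr n h (by
      simp only [List.mem_cons, List.not_mem_nil, or_false] at hn ⊢; tauto))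
  have k206 : s3.reg 206 = i := by
    rw [kk 206 (by decide), hf2.reg 206 (by decide)]; exact h206
  have k207 : s3.reg 207 = r := by
    rw [kk 207 (by decide), hf2.reg 207 (by decide)]; exact h207
  have k209 : s3.reg 209 = u := by rw [kk 209 (by decide)]; exact g209
  have k210 : s3.reg 210 = i * (2 * T.l2) - u := by rw [kk 210 (by decide)]; exact g210
  have k150 : s3.arr 150 = s.arr 150 := by
    rw [hf3.arr 150 (fun h => hR.wa 150 h rfl), hf2.arr 150 (by simp)]
  refine Wp.loopF T.nE (by simp [hE3.r202]) hE3.l3 (fun t s' =>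
    (∀ e < t, s'.arr 150 ((i * T.nS + r) * T.nE + e) = T.entry q X Y hub off i r e) ∧
    ∀ u < (i * T.nS + r) * T.nE, s'.arr 150 u = s.arr 150 u)
    ⟨fun e he => absurd he (by omega), fun u' _ => by rw [k150]⟩ ?_ ?_
  · rintro t ht s' hf ⟨h1, h2⟩
    rw [endHP_wr, endHP_wa] at hf
    have hf' : Frame s3 (s'.setReg 208 t) [208, 211, 212, 213, 214, 218, 219, 219] [150] :=
      hf.trans ((frame_setReg s' 208 t).mono (by simp) (by simp))
    have hE' : TbEnv T q (s'.setReg 208 t) := hE3.frame hf' (by decide)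
    refine (endHP_spec (hub := hub) (off := off) (X := X) (Y := Y) (i := i) (r := r) (e := t)
      hT haF hE' hi ht
      (by rw [hf'.reg 206 (by decide)]; exact k206) (by rw [hf'.reg 207 (by decide)]; exact k207)
      (by simp) (by rw [hf'.reg 209 (by decide), k209, hu])
      (by rw [hf'.reg 210 (by decide), k210, hu]) ?_).mono ?_
    · intro a ha j hj
      rw [hf'.arr aF (by simp [haF]), hF a ha j hj, hu]
    · rintro s'' ⟨g1, g2⟩
      refine ⟨fun e he => ?_, fun u' hu' => ?_⟩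
      · rcases Nat.lt_succ_iff_lt_or_eq.mp he with h | h
        · rw [g1 _ (by omega)]
          exact h1 e h
        · subst h; exact g2
      · rw [g1 _ (by omega)]
        exact h2 u' hu'
  · rintro s' hf ⟨h1, h2⟩
    rw [endHP_wr, endHP_wa] at hf
    have hf' : Frame s3 s' [208, 211, 212, 213, 214, 218, 219, 219] [150] := hf
    refine ⟨hR.inv s3 s' (hf'.mono (by decide) (by decide)) hI3, ?_, h1, h2⟩
    rw [hf'.reg 5 (by decide), ← g5]; exact h5

theorem wr_start : ∀ k ∈ (startHP run aF).wr, k ∈ [208, 209, 210, 211, 212, 213, 214, 218, 219] ∨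
    k ∈ run.wr := by
  intro k hk
  simp only [startHP, endHP, HP.wr, List.mem_append, List.mem_cons, List.not_mem_nil,
    or_false] at hk ⊢
  tauto

theorem wa_start : ∀ k ∈ (startHP run aF).wa, k = 150 ∨ k ∈ run.wa := by
  intro k hk
  simp only [startHP, endHP, HP.wa, List.mem_append, List.mem_cons, List.not_mem_nil,
    or_false, false_or] at hk ⊢
  tauto

/-- **The table of the visible costs.** -/
theorem visHP_spec (hT : T.Ok q) (haF : aF ≠ 150)
    (hR : RunOk ρ q X Y hub off run aF Bp TOT Inv) (hBp : T.Kr * (2 * T.l2) ≤ Bp) {s : State}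
    (hE : TbEnv T q s) (hI : Inv s) (hb : T.Kr * T.nS * TOT ≤ s.reg 5) :
    Wp ρ (visHP run aF) (fun s' => Inv s' ∧ s.reg 5 ≤ s'.reg 5 + T.Kr * T.nS * TOT ∧
      ∀ i < T.Kr, ∀ r < T.nS, ∀ e < T.nE,
        s'.arr 150 ((i * T.nS + r) * T.nE + e) = T.entry q X Y hub off i r e) s := by
  have hwr : ∀ k ∈ (startHP run aF).wr,
      k ∉ [3, 4, 200, 201, 202, 203, 204, 205, 206, 207, 215, 216, 217] := by
    intro k hk hk'
    rcases wr_start k hk with h | h
    · revert hk' h; revert k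
      simp only [List.mem_cons, List.not_mem_nil, or_false]
      intro k _ h1 h2; omega
    · exact hR.wr k h (by
        simp only [List.mem_cons, List.not_mem_nil, or_false] at hk' ⊢; tauto)
  have addr : ∀ i r i' r' e, (i < i' ∨ (i = i' ∧ r < r')) → r < T.nS → e < T.nE →
      (i * T.nS + r) * T.nE + e < (i' * T.nS + r') * T.nE := by
    intro i r i' r' e h hr he
    have h1 : i * T.nS + r + 1 ≤ i' * T.nS + r' := by
      rcases h with h | ⟨rfl, h⟩
      · have : (i + 1) * T.nS ≤ i' * T.nS := Nat.mul_le_mul_right _ h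
        rw [Nat.add_mul, Nat.one_mul] at this
        omega
      · omega
    have h2 := Nat.mul_le_mul_right T.nE h1
    rw [Nat.add_mul, Nat.one_mul] at h2
    omega
  unfold visHP
  refine Wp.loopF T.Kr (by simp [hE.r200]) hE.l1 (fun t s' => Inv s' ∧
    s.reg 5 ≤ s'.reg 5 + t * T.nS * TOT ∧ ∀ i < t, ∀ r < T.nS, ∀ e < T.nE,
      s'.arr 150 ((i * T.nS + r) * T.nE + e) = T.entry q X Y hub off i r e)
    ⟨hI, by simp, fun i hi => absurd hi (by omega)⟩ ?_ (fun s' _ h => h)
  rintro i hi s1 hf1 ⟨hI1, h51, hA1⟩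
  have hfs : Frame s1 (s1.setReg 206 i) [206] [] := frame_setReg s1 206 i
  have hE1 : TbEnv T q s1 := hE.frame hf1 (fun k hk hk' => by
    simp only [HP.wr, List.mem_cons] at hk
    rcases hk with rfl | rfl | hk
    · exact absurd hk' (by decide)
    · exact absurd hk' (by decide)
    · exact hwr k hk (by simp only [List.mem_cons, List.not_mem_nil, or_false] at hk' ⊢; tauto))
  have hE1' : TbEnv T q (s1.setReg 206 i) := hE1.frame hfs (by decide)
  have hI1' : Inv (s1.setReg 206 i) := hR.inv _ _ (hfs.mono (by decide) (by decide)) hI1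
  refine Wp.loopF T.nS (by simp [hE1.r201]) hE1'.l2' (fun t s' => Inv s' ∧
    s.reg 5 ≤ s'.reg 5 + (i * T.nS + t) * TOT ∧
    (∀ i' < i, ∀ r < T.nS, ∀ e < T.nE,
      s'.arr 150 ((i' * T.nS + r) * T.nE + e) = T.entry q X Y hub off i' r e) ∧
    ∀ r < t, ∀ e < T.nE,
      s'.arr 150 ((i * T.nS + r) * T.nE + e) = T.entry q X Y hub off i r e)
    ⟨hI1', by simpa using h51, fun i' hi' r hr e he => by
      simpa using hA1 i' hi' r hr e he, fun r hr => absurd hr (by omega)⟩ ?_ ?_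
  · rintro r hr s2 hf2 ⟨hI2, h52, hA2, hB2⟩
    have hfs2 : Frame s2 (s2.setReg 207 r) [207] [] := frame_setReg s2 207 r
    have hE2 : TbEnv T q s2 := hE1'.frame hf2 (fun k hk hk' => by
      simp only [List.mem_cons] at hk
      rcases hk with rfl | hk
      · exact absurd hk' (by decide)
      · exact hwr k hk (by
          simp only [List.mem_cons, List.not_mem_nil, or_false] at hk' ⊢; tauto))
    have hE2' : TbEnv T q (s2.setReg 207 r) := hE2.frame hfs2 (by decide)
    have hI2' : Inv (s2.setReg 207 r) := hR.inv _ _ (hfs2.mono (by decide) (by decide)) hI2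
    have g206 : s2.reg 206 = i := by
      rw [hf2.reg 206 (fun h => by
        rcases List.mem_cons.mp h with h | h
        · exact absurd h (by decide)
        · exact hwr 206 h (by decide))]
      simp
    have hlt : i * T.nS + r + 1 ≤ T.Kr * T.nS := by
      have : (i + 1) * T.nS ≤ T.Kr * T.nS := Nat.mul_le_mul_right _ hi
      rw [Nat.add_mul, Nat.one_mul] at this
      omega
    have hle := Nat.mul_le_mul_right TOT hlt
    have e1 : (i * T.nS + r + 1) * TOT = (i * T.nS + r) * TOT + TOT := by ring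
    refine (startHP_spec hT haF hR hBp hE2' hI2' (i := i) (r := r) hi (by simpa using g206)
      (by simp) ?_).mono ?_
    · simp only [State.setReg_reg, if_neg (show (5 : ℕ) ≠ 207 by decide)]
      omega
    · rintro s3 ⟨hI3, h53, hC, hD⟩
      simp only [State.setReg_reg, if_neg (show (5 : ℕ) ≠ 207 by decide)] at h53
      refine ⟨hI3, ?_, ?_, ?_⟩
      · rw [show (i * T.nS + (r + 1)) * TOT = (i * T.nS + r) * TOT + TOT by ring]
        omega
      · intro i' hi' r' hr' e he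
        rw [hD _ (addr i' r' i r e (Or.inl hi') hr' he)]
        simpa using hA2 i' hi' r' hr' e he
      · intro r' hr' e he
        rcases Nat.lt_succ_iff_lt_or_eq.mp hr' with h | h
        · rw [hD _ (addr i r' i r e (Or.inr ⟨rfl, h⟩) (by omega) he)]
          simpa using hB2 r' h e he
        · subst h; exact hC e he
  · rintro s2 _ ⟨hI2, h52, hA2, hB2⟩
    refine ⟨hI2, ?_, ?_⟩
    · rw [show (i + 1) * T.nS * TOT = (i * T.nS + T.nS) * TOT by ring]
      exact h52
    · intro i' hi' r hr e he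
      rcases Nat.lt_succ_iff_lt_or_eq.mp hi' with h | h
      · exact hA2 i' h r hr e he
      · subst h; exact hB2 r hr e he

end

end Vale.Agent.P315.H36
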