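import Vale.Agent.P315.H36.VisRam
import Vale.Agent.P315.H933.Start
import Vale.Agent.P315.H142.Sweep2
import Vale.Agent.P315.H817.Bridge

/-! The START phase of the multiplicative version on the machine: the table of all visible costs
(array `150`), from the seeds in array `140`; exact budget, specification with time.

Inputs: registers `144` grid step, `146` windows per block, `147` blocks, `148` hubs, `149` near
grid points, `150` sampled offsets, `151` place of the first seed, `160` window length in grid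
steps, `161` grid points; `200` rows, `201` starts, `202` ends, `203` mesh, `204` half of the
length of a row, `205` origin; arrays `0`, `1` the strings, `140` the seeds. -/

set_option autoImplicit false

namespace Vale.Agent.P315.H36

open Vale.Agent.P315 Vale.Agent.P315.H142 Vale.Agent.P315.H54 Vale.Agent.P315.H817
open Vale.Agent.P315.H933

variable {ρ : ℕ → ℕ}

/-- One run: both tables and all block rows. -/
def runHP : HP := .seq (.set 140 (.reg 209)) (.seq (.set 142 (.reg 210))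
  (.seq tabHP Sweep2.sweepHP))

/-- The whole phase. -/
def phaseHP : HP := .seq (.set 215 (.reg 144))
  (.seq (.set 216 (emul (.reg 146) (emul (.reg 144) (.reg 160))))
  (.seq (.set 217 (eadd (eadd (.reg 161) (emul (.reg 146) (.reg 160))) (.lit 1)))
    (visHP runHP 147)))

/-- The inputs which do not depend on the run. -/
structure Inv0 (q : SP) (X Y : ℕ → ℕ) (o : ℕ) (sd : ℕ → ℕ) (Bp : ℕ) (s : State) : Prop where
  a0 : s.arr 0 = X
  a1 : s.arr 1 = Y
  a140 : s.arr 140 = sd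
  r144 : s.reg 144 = q.g
  r146 : s.reg 146 = q.b
  r147 : s.reg 147 = q.K
  r148 : s.reg 148 = q.s
  r149 : s.reg 149 = q.d
  r150 : s.reg 150 = q.R
  r151 : s.reg 151 = o
  r160 : s.reg 160 = q.v
  r161 : s.reg 161 = q.M
  b3 : Bp + 2 ^ (q.e + 3) ≤ s.reg 3
  bw : (2 ^ q.lc + 1) * (2 ^ q.lc + 2) ≤ s.reg 3
  l4 : q.loops ≤ s.reg 4
  l34 : s.reg 4 ≤ s.reg 3

variable {q : SP} {X Y : ℕ → ℕ} {o : ℕ} {sd : ℕ → ℕ} {Bp : ℕ}

theorem Inv0.frame {s s' : State} {wr wa : List ℕ} (h : Inv0 q X Y o sd Bp s)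
    (hf : Frame s s' wr wa)
    (hr : ∀ k ∈ [3, 4, 144, 146, 147, 148, 149, 150, 151, 160, 161], k ∉ wr)
    (ha : ∀ k ∈ [0, 1, 140], k ∉ wa) : Inv0 q X Y o sd Bp s' := by
  have r : ∀ k ∈ [3, 4, 144, 146, 147, 148, 149, 150, 151, 160, 161], s'.reg k = s.reg k :=
    fun k hk => hf.reg k (hr k hk)
  have a : ∀ k ∈ [0, 1, 140], s'.arr k = s.arr k := fun k hk => hf.arr k (ha k hk)
  have r3 := r 3 (by decide)
  have r4 := r 4 (by decide)
  exact ⟨(a 0 (by decide)).trans h.a0, (a 1 (by decide)).trans h.a1,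
    (a 140 (by decide)).trans h.a140, (r 144 (by decide)).trans h.r144,
    (r 146 (by decide)).trans h.r146, (r 147 (by decide)).trans h.r147,
    (r 148 (by decide)).trans h.r148, (r 149 (by decide)).trans h.r149,
    (r 150 (by decide)).trans h.r150, (r 151 (by decide)).trans h.r151,
    (r 160 (by decide)).trans h.r160, (r 161 (by decide)).trans h.r161,
    by rw [r3]; exact h.b3, by rw [r3]; exact h.bw, by rw [r4]; exact h.l4,
    by rw [r3, r4]; exact h.l34⟩

theorem pm_bw (h : q.Ok) (px py : ℕ) : (q.pm X Y px py).b * (q.pm X Y px py).w = 2 ^ q.lc := by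
  rw [SP.pm_w h]
  exact SP.bw q

theorem Inv0.inp (hq : q.Ok) {s : State} (h : Inv0 q X Y o sd Bp s) {px py : ℕ} (hx : px ≤ Bp)
    (hy : py ≤ Bp) (h140 : s.reg 140 = px) (h142 : s.reg 142 = py) :
    Inp0 (q.pm X Y px py) q.s q.R o sd s := by
  have hsz := SP.size_le hq
  have hlp := SP.loops_le hq
  have e1 : JJ (q.pm X Y px py) = q.M + q.b * q.v := rfl
  have e2 : (q.pm X Y px py).k = q.K * q.b := rfl
  have hw : (q.pm X Y px py).w = q.w := SP.pm_w hq px py
  have e3 : JJ (q.pm X Y px py) * (q.pm X Y px py).g = (q.M + q.b * q.v) * q.g := rfl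
  have e4 : (q.pm X Y px py).k * (q.pm X Y px py).w = q.K * q.b * q.w := by rw [hw, e2]
  have hb3 := h.b3
  have hl4 := h.l4
  obtain ⟨l1, l2, l3, l4, l5, l6, l7, l8⟩ := hlp
  refine ⟨h.a0, h.a1, h.a140, h140, h142, h.r144, h.r146, h.r147, h.r148, h.r149, h.r150, h.r151,
    h.r160, h.r161, ?_, ?_, ?_, ?_, ?_, ?_, ?_, ?_, ?_, ?_, h.l34, ?_, ?_⟩
  · rw [e4]; show px + _ ≤ _; omega
  · rw [e3]; show py + _ ≤ _; omega
  · unfold wt; rw [pm_bw hq]; exact h.bw
  · rw [e3, e4]; omega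
  · rw [e2]; omega
  · rw [e1]; omega
  · omega
  · omega
  · show q.b ≤ _; omega
  · show q.K ≤ _; omega
  · exact Nat.pow_pos (by norm_num)
  · exact Nat.pow_pos (by norm_num)

theorem TOT_eq (hq : q.Ok) (px py : ℕ) : TOT (q.pm X Y px py) q.s q.R = q.tot := by
  have hw : (q.pm X Y px py).w = q.w := SP.pm_w hq px py
  have hb : (q.pm X Y px py).b = q.b := rfl
  unfold TOT c1 c2 wt SP.tot
  rw [hw, hb]
  show q.s * ((q.M + q.K * q.b) * _) + q.K * (q.R * (q.M * _ + q.d * _)) = _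
  ring

theorem run_frame (s : State) : Frame s (runHP.run ρ s) ([140, 142, 170, 171, 172] ++ tabR)
    ([145, 146, 147] ++ tabA) :=
  (runHP.frame ρ s).mono (by decide) (by decide)

/-- **One run.** -/
theorem runOk (hq : q.Ok) : RunOk ρ q X Y (fun t => sd (o + t) % q.M)
    (fun t => sd (o + q.s + t) % q.b) runHP 147 Bp q.tot (Inv0 q X Y o sd Bp) := by
  refine ⟨by decide, by decide, ?_, ?_⟩
  · intro s px py hI h209 h210 hx hy h5
    have hf := run_frame (ρ := ρ) s
    suffices H : Wp ρ runHP (fun s' => s.reg 5 ≤ s'.reg 5 + q.tot ∧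
        ∀ a ≤ q.K, ∀ j ≤ q.M + q.b * q.v, s'.arr 147 (a * (q.M + q.b * q.v + 1) + j) =
          q.vblk X Y (fun t => sd (o + t) % q.M) (fun t => sd (o + q.s + t) % q.b) px py a j) s by
      exact ⟨hI.frame hf (by decide) (by decide), H.1, H.2⟩
    have hb3 := hI.b3
    have hp3 : 0 < (2 : ℕ) ^ (q.e + 3) := Nat.pow_pos (by norm_num)
    unfold runHP
    refine Wp.seq (Wp.set px (by simpa using h209) (by omega) ?_)
    refine Wp.seq (Wp.set py (by simpa using h210) (by simp; omega) ?_)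
    obtain ⟨s2, hs2⟩ : ∃ s2, s2 = (s.setReg 140 px).setReg 142 py := ⟨_, rfl⟩
    rw [← hs2]
    have hf2 : Frame s s2 [140, 142] [] := by
      rw [hs2]
      exact ((frame_setReg s 140 px).mono (by simp) (by simp)).trans
        ((frame_setReg _ 142 _).mono (by simp) (by simp))
    have hI2 : Inv0 q X Y o sd Bp s2 := hI.frame hf2 (by decide) (by decide)
    have hP : Inp0 (q.pm X Y px py) q.s q.R o sd s2 := hI2.inp hq hx hy (by rw [hs2]; simp)
      (by rw [hs2]; simp)
    have g5 : s2.reg 5 = s.reg 5 := hf2.reg 5 (by decide)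
    refine Wp.seq (tabHP_wp hP (by rw [TOT_eq hq, g5]; exact h5) ?_)
    intro s3 hf3 h53 _ hE3
    rw [TOT_eq hq, g5] at h53
    have hRow : Sweep2.RowEnv (q.pm X Y px py)
        (fun i j => Aof (q.pm X Y px py) (hubOf (q.pm X Y px py) o sd) i j q.s)
        (Bof (q.pm X Y px py) q.R (offOf (q.pm X Y px py) q.s o sd)) s3 := by
      have r147 : s3.reg 147 = q.K := by
        rw [hf3.reg 147 (by decide)]; exact hI2.r147
      exact ⟨hE3.r144, hE3.r160, hE3.r146, r147, hE3.r161, hE3.r162, hE3.r163, hE3.a143,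
        hE3.a144, hE3.l1, hE3.l2, hE3.l3, hE3.b1⟩
    have hfs := (Sweep2.sweepHP).frame ρ s3
    have h5s : (Sweep2.sweepHP.run ρ s3).reg 5 = s3.reg 5 :=
      hfs.reg 5 (fun h => absurd (Sweep2.wrwa_sweep.1 5 h) (by decide))
    have hW := Sweep2.sweepHP_spec (ρ := ρ) hRow
    refine ⟨?_, ?_⟩
    · show s.reg 5 ≤ (Sweep2.sweepHP.run ρ s3).reg 5 + q.tot
      rw [h5s]; exact h53
    · intro a ha j hj
      exact hW a ha j hj
  · intro s s' hf hI
    exact hI.frame hf (by decide) (by decide)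

variable {T : Tb}

/-- The inputs of the whole phase. -/
structure PhIn (T : Tb) (q : SP) (X Y : ℕ → ℕ) (o : ℕ) (sd : ℕ → ℕ) (s : State) : Prop where
  inv : Inv0 q X Y o sd (T.Kr * (2 * T.l2)) s
  r200 : s.reg 200 = T.Kr
  r201 : s.reg 201 = T.nS
  r202 : s.reg 202 = T.nE
  r203 : s.reg 203 = T.mu
  r204 : s.reg 204 = T.l2
  r205 : s.reg 205 = T.c0
  l1 : T.Kr ≤ s.reg 4
  l2' : T.nS ≤ s.reg 4
  l3 : T.nE ≤ s.reg 4

/-- Registers and arrays written by the phase. -/
def phR : List ℕ := [140, 142, 170, 171, 172, 206, 207, 208, 209, 210, 211, 212, 213, 214, 215,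
  216, 217, 218, 219] ++ tabR

def phA : List ℕ := [145, 146, 147, 150] ++ tabA

theorem phase_frame (s : State) : Frame s (phaseHP.run ρ s) phR phA :=
  (phaseHP.frame ρ s).mono (by decide) (by decide)

/-- **The table of all visible costs.** -/
theorem phase_wp (hT : T.Ok q) {s : State} (h : PhIn T q X Y o sd s)
    (h5 : T.Kr * T.nS * q.tot ≤ s.reg 5) :
    Wp ρ phaseHP (fun s' => Frame s s' phR phA ∧
      s.reg 5 ≤ s'.reg 5 + T.Kr * T.nS * q.tot ∧
      ∀ i < T.Kr, ∀ r < T.nS, ∀ e < T.nE, s'.arr 150 ((i * T.nS + r) * T.nE + e) =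
        T.entry q X Y (fun t => sd (o + t) % q.M) (fun t => sd (o + q.s + t) % q.b) i r e) s := by
  have hf := phase_frame (ρ := ρ) s
  suffices H : Wp ρ phaseHP (fun s' => s.reg 5 ≤ s'.reg 5 + T.Kr * T.nS * q.tot ∧
      ∀ i < T.Kr, ∀ r < T.nS, ∀ e < T.nE, s'.arr 150 ((i * T.nS + r) * T.nE + e) =
        T.entry q X Y (fun t => sd (o + t) % q.M) (fun t => sd (o + q.s + t) % q.b) i r e) s from
    ⟨hf, H.1, H.2⟩
  have hq := hT.hq
  have hI := h.inv
  have hb3 := hI.b3
  have hl4 := hI.l4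
  have hl34 := hI.l34
  have hsz := SP.size_le hq
  have hlp := SP.loops_le hq
  have gv := SP.gv hq
  have hgle : q.g ≤ q.M * q.g := Nat.le_mul_of_pos_left _ (Nat.pow_pos (by norm_num))
  have hMg := SP.Mg hq
  have hbw := SP.bw q
  have hlc := SP.lc_le hq
  have p1 : (2 : ℕ) ^ (q.e + 1) ≤ 2 ^ (q.e + 3) := Nat.pow_le_pow_right (by norm_num) (by omega)
  have p2 : (2 : ℕ) ^ q.lc ≤ 2 ^ (q.e + 3) := Nat.pow_le_pow_right (by norm_num) (by omega)
  unfold phaseHP
  refine Wp.seq (Wp.set q.g (by simpa using hI.r144) (by omega) ?_)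
  refine Wp.seq (Wp.set (q.b * q.w) ?_ ?_ ?_)
  · simp [hI.r146, hI.r144, hI.r160, gv]
  · simp; omega
  refine Wp.seq (Wp.set (q.M + q.b * q.v + 1) ?_ ?_ ?_)
  · simp [hI.r161, hI.r146, hI.r160]
  · simp; omega
  obtain ⟨s2, hs2⟩ : ∃ s2, s2 = ((s.setReg 215 q.g).setReg 216 (q.b * q.w)).setReg 217
    (q.M + q.b * q.v + 1) := ⟨_, rfl⟩
  rw [← hs2]
  have hf2 : Frame s s2 [215, 216, 217] [] := by
    rw [hs2]
    exact (((frame_setReg s 215 _).mono (by simp) (by simp)).trans
      ((frame_setReg _ 216 _).mono (by simp) (by simp))).trans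
      ((frame_setReg _ 217 _).mono (by simp) (by simp))
  have hI2 : Inv0 q X Y o sd (T.Kr * (2 * T.l2)) s2 := hI.frame hf2 (by decide) (by decide)
  have k : ∀ n ∈ [3, 4, 5, 200, 201, 202, 203, 204, 205], s2.reg n = s.reg n := fun n hn =>
    hf2.reg n (by revert hn; revert n; decide)
  have hE2 : TbEnv T q s2 := by
    refine ⟨(k 200 (by decide)).trans h.r200, (k 201 (by decide)).trans h.r201,
      (k 202 (by decide)).trans h.r202, (k 203 (by decide)).trans h.r203,
      (k 204 (by decide)).trans h.r204, (k 205 (by decide)).trans h.r205, ?_, ?_, ?_, ?_, ?_,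
      ?_, ?_⟩
    · rw [hs2]; simp
    · rw [hs2]; simp
    · rw [hs2]; simp
    · rw [k 4 (by decide)]; exact h.l1
    · rw [k 4 (by decide)]; exact h.l2'
    · rw [k 4 (by decide)]; exact h.l3
    · rw [k 3 (by decide)]; omega
  have g5 : s2.reg 5 = s.reg 5 := k 5 (by decide)
  refine (visHP_spec (hub := fun t => sd (o + t) % q.M) (off := fun t => sd (o + q.s + t) % q.b)
    hT (by decide) (runOk hq) le_rfl hE2 hI2 (by rw [g5]; exact h5)).mono ?_
  rintro s' ⟨_, h1, h2⟩
  rw [g5] at h1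
  exact ⟨h1, h2⟩

/-! ### Admissibility and time -/

theorem phase_ok : phaseHP.ok 2 60 = true := by decide

theorem phase_depth : phaseHP.depth = 6 := rfl

theorem phase_bigs : ∀ p ∈ phaseHP.bigs, p = cGuard 0 1 ∨ p = cGuard 1 1 := by
  intro p hp
  have h1 : phaseHP.bigs = tabHP.bigs := by
    simp [phaseHP, visHP, startHP, runHP, endHP, HP.bigs, Sweep2.sweep_bigs]
  rw [h1] at hp
  exact tab_bigs p hp

theorem phase_Ok (E : Env) {T : ℕ} (hT : 100 ≤ T) (hS : 130 ≤ E.S) : phaseHP.Ok E T := by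
  refine HP.Ok_of_ok (c := 2) (m := 60) E.hR (by omega) phaseHP phase_ok ?_
  intro p hp
  rcases phase_bigs p hp with rfl | rfl
  · exact cGuard_bigOk E hT 0 1
  · exact cGuard_bigOk E hT 1 1

/-- **Specification of the START phase.** -/
theorem phase_spec {E : Env} (hS : 130 ≤ E.S) (hT : T.Ok q) {s : State}
    (h : PhIn T q X Y o sd s) (h5 : T.Kr * T.nS * q.tot ≤ s.reg 5) :
    Spec E s phaseHP.comp (phaseHP.sz * (s.reg 4 + 2) ^ 6 + T.Kr * T.nS * q.tot * 100)
      (fun s' => Frame s s' phR phA ∧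
        ∀ i < T.Kr, ∀ r < T.nS, ∀ e < T.nE, s'.arr 150 ((i * T.nS + r) * T.nE + e) =
          T.entry q X Y (fun t => sd (o + t) % q.M) (fun t => sd (o + q.s + t) % q.b) i r e) := by
  have h1 := HP.spec' (E := E) (T := 100) phaseHP (phase_Ok E le_rfl hS)
    (s := s) (Q := fun s' => Frame s s' phR phA ∧ s.reg 5 ≤ s'.reg 5 + T.Kr * T.nS * q.tot ∧
      ∀ i < T.Kr, ∀ r < T.nS, ∀ e < T.nE, s'.arr 150 ((i * T.nS + r) * T.nE + e) =
        T.entry q X Y (fun t => sd (o + t) % q.M) (fun t => sd (o + q.s + t) % q.b) i r e)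
    (fun _ => phase_wp hT h h5) (fun s' h' => h'.2.1)
  rw [phase_depth] at h1
  exact h1.mono le_rfl (fun s' h' => ⟨h'.1, h'.2.2⟩)

end Vale.Agent.P315.H36
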